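import Vale.Agent.P179.R2.H292.LDefsC

/-!
# The commutator group `[D, T]` of a coprime action on an abelian `p`-group
-/

namespace P179H351

open Subgroup

open scoped Classical

section Abs

variable {A : Type*} [CommGroup A] [Finite A]

/-- the fixed points of a group of automorphisms -/
def fixA (M : Subgroup (MulAut A)) : Subgroup A where
  carrier := {a | ∀ m ∈ M, m a = a}
  one_mem' := fun m _ => map_one m
  mul_mem' := fun {a b} ha hb m hm => by rw [map_mul, ha m hm, hb m hm]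
  inv_mem' := fun {a} ha m hm => by rw [map_inv, ha m hm]

/-- the commutators with a group of automorphisms -/
def comA (M : Subgroup (MulAut A)) : Subgroup A :=
  closure {x | ∃ m ∈ M, ∃ a : A, x = m a * a⁻¹}

/-- the product over the group of automorphisms -/
noncomputable def nrmA (M : Subgroup (MulAut A)) : A →* A where
  toFun a := ∏ᶠ m : M, (m : MulAut A) a
  map_one' := by simp
  map_mul' a b := by
    rw [← finprod_mul_distrib (Set.toFinite _) (Set.toFinite _)]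
    exact finprod_congr fun m => map_mul _ _ _

theorem nrmA_apply (M : Subgroup (MulAut A)) (a : A) :
    nrmA M a = ∏ᶠ m : M, (m : MulAut A) a := rfl

theorem nrmA_mem (M : Subgroup (MulAut A)) (a : A) : nrmA M a ∈ fixA M := by
  intro m hm
  have := Fintype.ofFinite M
  rw [nrmA_apply, finprod_eq_prod_of_fintype, map_prod]
  exact Fintype.prod_equiv (Equiv.mulLeft (⟨m, hm⟩ : M)) _ _ fun x => rfl

theorem nrmA_aut (M : Subgroup (MulAut A)) {m : MulAut A} (hm : m ∈ M) (a : A) :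
    nrmA M (m a) = nrmA M a := by
  have := Fintype.ofFinite M
  rw [nrmA_apply, nrmA_apply, finprod_eq_prod_of_fintype, finprod_eq_prod_of_fintype]
  exact Fintype.prod_equiv (Equiv.mulRight (⟨m, hm⟩ : M)) _ _ fun x => rfl

theorem nrmA_com {M : Subgroup (MulAut A)} {a : A} (ha : a ∈ comA M) : nrmA M a = 1 := by
  have h : comA M ≤ (nrmA M).ker := by
    rw [comA, closure_le]
    rintro x ⟨m, hm, b, rfl⟩
    rw [SetLike.mem_coe, MonoidHom.mem_ker, map_mul, nrmA_aut M hm, map_inv, mul_inv_cancel]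
  exact h ha

theorem nrmA_fix {M : Subgroup (MulAut A)} {a : A} (ha : a ∈ fixA M) :
    nrmA M a = a ^ Nat.card M := by
  have := Fintype.ofFinite M
  have h : ∀ m : M, (m : MulAut A) a = a := fun m => ha m m.2
  rw [nrmA_apply, finprod_eq_prod_of_fintype]
  simp only [h, Finset.prod_const, Finset.card_univ, Nat.card_eq_fintype_card]

theorem pow_mem_sup (M : Subgroup (MulAut A)) (a : A) : a ^ Nat.card M ∈ fixA M ⊔ comA M := by
  have := Fintype.ofFinite M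
  have h1 : (∏ m : M, ((m : MulAut A) a * a⁻¹)) ∈ comA M :=
    Subgroup.prod_mem _ fun m _ => subset_closure ⟨m, m.2, a, rfl⟩
  have h2 : (∏ m : M, ((m : MulAut A) a * a⁻¹)) = nrmA M a * (a ^ Nat.card M)⁻¹ := by
    rw [Finset.prod_mul_distrib, Finset.prod_const, Finset.card_univ, inv_pow, nrmA_apply,
      finprod_eq_prod_of_fintype, Nat.card_eq_fintype_card]
  rw [h2] at h1
  have h3 : a ^ Nat.card M = nrmA M a * (nrmA M a * (a ^ Nat.card M)⁻¹)⁻¹ := by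
    rw [mul_inv, inv_inv, mul_inv_cancel_left]
  rw [h3]
  exact mul_mem (mem_sup_left (nrmA_mem M a)) (mem_sup_right (inv_mem h1))

omit [Finite A] in
theorem mem_of_pow {p : ℕ} [Fact p.Prime] (hA : IsPGroup p A) {m : ℕ} (hm : ¬ p ∣ m)
    (H : Subgroup A) {a : A} (ha : a ^ m ∈ H) : a ∈ H := by
  obtain ⟨n, hn⟩ := hA a
  have hc : Nat.Coprime m (p ^ n) :=
    (Nat.Coprime.pow_left n ((Nat.Prime.coprime_iff_not_dvd Fact.out).2 hm)).symm
  have h1 : (m : ℤ) * Nat.gcdA m (p ^ n) + ((p ^ n : ℕ) : ℤ) * Nat.gcdB m (p ^ n) = 1 := by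
    rw [← Nat.gcd_eq_gcd_ab, hc]
    rfl
  have h2 : a = (a ^ m) ^ Nat.gcdA m (p ^ n) := by
    calc a = a ^ ((m : ℤ) * Nat.gcdA m (p ^ n) + ((p ^ n : ℕ) : ℤ) * Nat.gcdB m (p ^ n)) := by
          rw [h1, zpow_one]
      _ = (a ^ m) ^ Nat.gcdA m (p ^ n) := by
          rw [zpow_add, zpow_mul, zpow_mul, zpow_natCast, zpow_natCast, hn, one_zpow, mul_one]
  rw [h2]
  exact H.zpow_mem ha _

theorem sup_eq_topA {p : ℕ} [Fact p.Prime] (hA : IsPGroup p A) (M : Subgroup (MulAut A))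
    (hM : ¬ p ∣ Nat.card M) : fixA M ⊔ comA M = ⊤ :=
  eq_top_iff.2 fun a _ => mem_of_pow hA hM _ (pow_mem_sup M a)

theorem inf_eq_botA {p : ℕ} [Fact p.Prime] (hA : IsPGroup p A) (M : Subgroup (MulAut A))
    (hM : ¬ p ∣ Nat.card M) {a : A} (h1 : a ∈ fixA M) (h2 : a ∈ comA M) : a = 1 := by
  have h3 := nrmA_fix h1
  rw [nrmA_com h2] at h3
  have h4 := mem_of_pow hA hM ⊥ (a := a) (by rw [mem_bot, ← h3])
  exact mem_bot.1 h4

end Abs

section Foc

variable {G : Type*} [Group G]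

/-- the subgroup generated by the commutators `t d t⁻¹ d⁻¹`, `t ∈ T`, `d ∈ D` -/
def focal (D T : Subgroup G) : Subgroup G :=
  closure {x | ∃ t ∈ T, ∃ d ∈ D, x = t * d * t⁻¹ * d⁻¹}

/-- the centraliser of `T` in `D` -/
def fixD (D T : Subgroup G) : Subgroup G := D ⊓ centralizer (T : Set G)

theorem mem_fixD {D T : Subgroup G} {x : G} :
    x ∈ fixD D T ↔ x ∈ D ∧ ∀ t ∈ T, t * x * t⁻¹ = x := by
  unfold fixD
  rw [mem_inf, mem_centralizer_iff]
  refine and_congr_right fun _ => forall₂_congr fun t _ => ?_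
  constructor
  · intro h
    rw [h, mul_inv_cancel_right]
  · intro h
    calc t * x = t * x * t⁻¹ * t := by group
      _ = x * t := by rw [h]

theorem focal_le {D T : Subgroup G} (hTD : ∀ t ∈ T, ∀ d ∈ D, t * d * t⁻¹ ∈ D) : focal D T ≤ D := by
  rw [focal, closure_le]
  rintro x ⟨t, ht, d, hd, rfl⟩
  exact mul_mem (hTD t ht d hd) (inv_mem hd)

/-- the action of `T` on `D` -/
def actD (D T : Subgroup G) (hTD : ∀ t ∈ T, ∀ d ∈ D, t * d * t⁻¹ ∈ D) : T →* MulAut D where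
  toFun t :=
    { toFun := fun d => ⟨(t : G) * d * (t : G)⁻¹, hTD t t.2 d d.2⟩
      invFun := fun d => ⟨(t : G)⁻¹ * d * (t : G), by
        have h := hTD (t : G)⁻¹ (inv_mem t.2) d d.2
        rwa [inv_inv] at h⟩
      left_inv := fun d => Subtype.ext (by
        change (t : G)⁻¹ * ((t : G) * d * (t : G)⁻¹) * t = d
        group)
      right_inv := fun d => Subtype.ext (by
        change (t : G) * ((t : G)⁻¹ * d * (t : G)) * (t : G)⁻¹ = d
        group)
      map_mul' := fun a b => Subtype.ext (by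
        change (t : G) * (a * b) * (t : G)⁻¹ = (t : G) * a * (t : G)⁻¹ * ((t : G) * b * (t : G)⁻¹)
        group) }
  map_one' := MulEquiv.ext fun d => Subtype.ext (by
    change (1 : G) * d * (1 : G)⁻¹ = d
    group)
  map_mul' s t := MulEquiv.ext fun d => Subtype.ext (by
    change ((s * t : T) : G) * d * ((s * t : T) : G)⁻¹ = (s : G) * ((t : G) * d * (t : G)⁻¹) * (s : G)⁻¹
    push_cast
    group)

theorem actD_apply (D T : Subgroup G) (hTD : ∀ t ∈ T, ∀ d ∈ D, t * d * t⁻¹ ∈ D) (t : T) (d : D) :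
    ((actD D T hTD t d : D) : G) = (t : G) * d * (t : G)⁻¹ := rfl

theorem card_range_actD [Finite G] (D T : Subgroup G)
    (hTD : ∀ t ∈ T, ∀ d ∈ D, t * d * t⁻¹ ∈ D) :
    Nat.card (actD D T hTD).range = (centralizer (D : Set G)).relIndex T := by
  have h1 : (actD D T hTD).ker = (centralizer (D : Set G)).subgroupOf T := by
    ext t
    rw [MonoidHom.mem_ker, mem_subgroupOf, mem_centralizer_iff]
    constructor
    · intro h d hd
      have h2 : actD D T hTD t ⟨d, hd⟩ = ⟨d, hd⟩ := by rw [h]; rfl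
      have h3 : (t : G) * d * (t : G)⁻¹ = d := congrArg Subtype.val h2
      calc d * (t : G) = (t : G) * d * (t : G)⁻¹ * t := by rw [h3]
        _ = t * d := by group
    · intro h
      refine MulEquiv.ext fun d => Subtype.ext ?_
      change (t : G) * d * (t : G)⁻¹ = d
      rw [← h d d.2, mul_inv_cancel_right]
  rw [← Subgroup.index_ker, h1]
  rfl

variable [Finite G] {p : ℕ} [hp : Fact p.Prime] {D T : Subgroup G}

/-- `D` is the direct product of `C_D(T)` and `[D, T]` -/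
theorem fitting (hD : IsPGroup p D) (hab : ∀ a ∈ D, ∀ b ∈ D, a * b = b * a)
    (hTD : ∀ t ∈ T, ∀ d ∈ D, t * d * t⁻¹ ∈ D)
    (hi : ¬ p ∣ (centralizer (D : Set G)).relIndex T) :
    (∀ x ∈ fixD D T, x ∈ focal D T → x = 1) ∧
      ∀ d ∈ D, ∃ z ∈ fixD D T, ∃ c ∈ focal D T, d = z * c := by
  let _ : CommGroup D := { (inferInstance : Group D) with
    mul_comm := fun a b => Subtype.ext (hab a a.2 b b.2) }
  set M := (actD D T hTD).range with hMdef
  have hM : ¬ p ∣ Nat.card M := by rw [hMdef, card_range_actD D T hTD]; exact hi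
  have hfix : ∀ x : D, x ∈ fixA M ↔ (x : G) ∈ fixD D T := by
    intro x
    rw [mem_fixD]
    constructor
    · intro h
      exact ⟨x.2, fun t ht => congrArg Subtype.val (h _ ⟨⟨t, ht⟩, rfl⟩)⟩
    · rintro ⟨-, h⟩ m ⟨t, rfl⟩
      exact Subtype.ext (h t t.2)
  have hcom : (comA M).map D.subtype = focal D T := by
    rw [comA, MonoidHom.map_closure, focal]
    congr 1
    ext x
    constructor
    · rintro ⟨y, ⟨m, ⟨t, rfl⟩, a, rfl⟩, rfl⟩
      exact ⟨t, t.2, a, a.2, rfl⟩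
    · rintro ⟨t, ht, d, hd, rfl⟩
      exact ⟨actD D T hTD ⟨t, ht⟩ ⟨d, hd⟩ * (⟨d, hd⟩ : D)⁻¹, ⟨_, ⟨⟨t, ht⟩, rfl⟩, ⟨d, hd⟩, rfl⟩, rfl⟩
  constructor
  · intro x hx hxc
    rw [← hcom] at hxc
    obtain ⟨y, hy, rfl⟩ := hxc
    have h1 := inf_eq_botA hD M hM ((hfix y).2 hx) hy
    rw [h1]
    rfl
  · intro d hd
    have h1 : (⟨d, hd⟩ : D) ∈ fixA M ⊔ comA M := by
      rw [sup_eq_topA hD M hM]
      exact mem_top _
    obtain ⟨z, hz, c, hc, hzc⟩ := mem_sup.1 h1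
    refine ⟨z, (hfix z).1 hz, c, ?_, ?_⟩
    · rw [← hcom]
      exact ⟨c, hc, rfl⟩
    · exact (congrArg Subtype.val hzc).symm

/-- the quotient `D / C_D(T)` is isomorphic to `[D, T]` -/
theorem focal_equiv (hD : IsPGroup p D) (hab : ∀ a ∈ D, ∀ b ∈ D, a * b = b * a)
    (hTD : ∀ t ∈ T, ∀ d ∈ D, t * d * t⁻¹ ∈ D)
    (hi : ¬ p ∣ (centralizer (D : Set G)).relIndex T) {X : Type*} [Group X] {D' : Subgroup X}
    (f : D →* D') (hf : Function.Surjective f) (hk : ∀ d : D, f d = 1 ↔ (d : G) ∈ fixD D T) :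
    Nonempty (focal D T ≃* D') := by
  obtain ⟨h1, h2⟩ := fitting hD hab hTD hi
  have hle := focal_le hTD
  refine ⟨MulEquiv.ofBijective (f.comp (inclusion hle)) ⟨?_, ?_⟩⟩
  · rw [injective_iff_map_eq_one]
    intro x hx
    have h3 := (hk _).1 hx
    exact Subtype.ext (h1 x h3 x.2)
  · intro y
    obtain ⟨d, rfl⟩ := hf y
    obtain ⟨z, hz, c, hc, hzc⟩ := h2 d d.2
    refine ⟨⟨c, hc⟩, ?_⟩
    have hzD : z ∈ D := (mem_fixD.1 hz).1
    have h3 : d = (⟨z, hzD⟩ : D) * inclusion hle ⟨c, hc⟩ := Subtype.ext hzc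
    rw [h3, map_mul, (hk _).2 hz, one_mul]
    rfl

omit [Finite G] in
/-- the group `[D, T]` in a subgroup containing conjugates of `D` and `T` -/
theorem focal_below {H : Subgroup G} {E TE : Subgroup H} {g : G}
    (hD : ∀ x ∈ D, g * x * g⁻¹ ∈ H) (hT : ∀ x ∈ T, g * x * g⁻¹ ∈ H)
    (h2 : ∀ x : H, x ∈ E ↔ g⁻¹ * x * g ∈ D) (h3 : ∀ n : H, n ∈ TE ↔ g⁻¹ * n * g ∈ T) :
    Nonempty (focal D T ≃* focal E TE) := by
  have h : (focal E TE).map H.subtype = (focal D T).map (MulAut.conj g).toMonoidHom := by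
    rw [focal, focal, MonoidHom.map_closure, MonoidHom.map_closure]
    congr 1
    ext x
    constructor
    · rintro ⟨y, ⟨t, ht, d, hd, rfl⟩, rfl⟩
      refine ⟨g⁻¹ * t * g * (g⁻¹ * d * g) * (g⁻¹ * t * g)⁻¹ * (g⁻¹ * d * g)⁻¹,
        ⟨_, (h3 t).1 ht, _, (h2 d).1 hd, rfl⟩, ?_⟩
      change g * (g⁻¹ * t * g * (g⁻¹ * d * g) * (g⁻¹ * t * g)⁻¹ * (g⁻¹ * d * g)⁻¹) * g⁻¹ =
        (t : G) * d * (t : G)⁻¹ * (d : G)⁻¹
      group
    · rintro ⟨y, ⟨t, ht, d, hd, rfl⟩, rfl⟩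
      refine ⟨(⟨g * t * g⁻¹, hT t ht⟩ : H) * ⟨g * d * g⁻¹, hD d hd⟩ * (⟨g * t * g⁻¹, hT t ht⟩ : H)⁻¹ *
        (⟨g * d * g⁻¹, hD d hd⟩ : H)⁻¹, ⟨_, ?_, _, ?_, rfl⟩, ?_⟩
      · rw [h3]
        have h5 : g⁻¹ * (g * t * g⁻¹) * g = t := by group
        change g⁻¹ * (g * t * g⁻¹) * g ∈ T
        rwa [h5]
      · rw [h2]
        have h5 : g⁻¹ * (g * d * g⁻¹) * g = d := by group
        change g⁻¹ * (g * d * g⁻¹) * g ∈ D
        rwa [h5]
      · change g * t * g⁻¹ * (g * d * g⁻¹) * (g * t * g⁻¹)⁻¹ * (g * d * g⁻¹)⁻¹ =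
          g * (t * d * t⁻¹ * d⁻¹) * g⁻¹
        group
  exact ⟨((focal D T).equivMapOfInjective (MulAut.conj g).toMonoidHom
    (MulAut.conj g).injective).trans ((MulEquiv.subgroupCongr h.symm).trans
      ((focal E TE).equivMapOfInjective H.subtype H.subtype_injective).symm)⟩

end Foc

section Transfer

variable {G X : Type*} [Group G] [Group X] {K : Subgroup G} {D : Subgroup X}

theorem card_equiv (e : K ≃* D) (n : ℕ) :
    Nat.card {x : G // x ∈ K ∧ x ^ n = 1} = Nat.card {x : X // x ∈ D ∧ x ^ n = 1} := by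
  refine Nat.card_congr
    { toFun := fun x => ⟨e ⟨x, x.2.1⟩, (e ⟨x, x.2.1⟩).2, ?_⟩
      invFun := fun x => ⟨e.symm ⟨x, x.2.1⟩, (e.symm ⟨x, x.2.1⟩).2, ?_⟩
      left_inv := fun x => Subtype.ext ?_
      right_inv := fun x => Subtype.ext ?_ }
  · have h : (⟨x, x.2.1⟩ : K) ^ n = 1 := Subtype.ext x.2.2
    have h2 := congrArg e h
    rw [map_pow, map_one] at h2
    exact congrArg Subtype.val h2
  · have h : (⟨x, x.2.1⟩ : D) ^ n = 1 := Subtype.ext x.2.2
    have h2 := congrArg e.symm h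
    rw [map_pow, map_one] at h2
    exact congrArg Subtype.val h2
  · change ((e.symm (e ⟨x, x.2.1⟩) : K) : G) = x
    rw [e.symm_apply_apply]
  · change ((e (e.symm ⟨x, x.2.1⟩) : D) : X) = x
    rw [e.apply_symm_apply]

theorem pow_equiv (e : K ≃* D) (x : K) (n : ℕ) : ((e x : D) : X) ^ n = e (x ^ n) := by
  rw [map_pow]
  rfl

theorem pow_eq_one_equiv (e : K ≃* D) (x : K) (n : ℕ) :
    ((e x : D) : X) ^ n = 1 ↔ (x : G) ^ n = 1 := by
  rw [pow_equiv]
  constructor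
  · intro h
    have h2 : e (x ^ n) = 1 := Subtype.ext h
    rw [map_eq_one_iff e e.injective] at h2
    exact congrArg Subtype.val h2
  · intro h
    have h2 : x ^ n = 1 := Subtype.ext h
    rw [h2, map_one]
    rfl

/-- elements of order `p` which are powers -/
theorem forall_pow_equiv (e : K ≃* D) {p n : ℕ}
    (h : ∀ x ∈ K, x ^ p = 1 → ∃ y ∈ K, y ^ n = x) :
    ∀ x ∈ D, x ^ p = 1 → ∃ y ∈ D, y ^ n = x := by
  intro x hx hxp
  obtain ⟨x', rfl⟩ : ∃ x' : K, ((e x' : D) : X) = x :=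
    ⟨e.symm ⟨x, hx⟩, by rw [e.apply_symm_apply]⟩
  obtain ⟨y, hy, hyx⟩ := h x' x'.2 ((pow_eq_one_equiv e x' p).1 hxp)
  refine ⟨e ⟨y, hy⟩, (e ⟨y, hy⟩).2, ?_⟩
  rw [pow_equiv]
  have h3 : (⟨y, hy⟩ : K) ^ n = x' := Subtype.ext hyx
  rw [h3]

theorem exists_pow_ne_equiv (e : K ≃* D) {n : ℕ} (h : ∃ z ∈ K, z ^ n ≠ 1) :
    ∃ z ∈ D, z ^ n ≠ 1 := by
  obtain ⟨z, hz, hz1⟩ := h
  exact ⟨e ⟨z, hz⟩, (e ⟨z, hz⟩).2, fun h => hz1 ((pow_eq_one_equiv e ⟨z, hz⟩ n).1 h)⟩

open P179B (LargeFactors RankTwo)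

theorem largeFactors_equiv (e : K ≃* D) {p : ℕ} (h : LargeFactors p K) : LargeFactors p D := by
  obtain ⟨r, j, n, h1, h2, h3, h4, h5, h6⟩ := h
  exact ⟨r, j, n, h1, h2, h3, h4, by rw [← card_equiv e p, h5], forall_pow_equiv e h6⟩

theorem rankTwo_equiv (e : K ≃* D) {p : ℕ} (h : RankTwo p K) : RankTwo p D := by
  obtain ⟨h1, h2⟩ := h
  refine ⟨by rw [← card_equiv e p, h1], ?_⟩
  rcases h2 with h2 | ⟨h2, h3⟩
  · exact Or.inl (exists_pow_ne_equiv e h2)
  · refine Or.inr ⟨exists_pow_ne_equiv e h2, ?_⟩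
    by_contra hc
    push Not at hc
    obtain ⟨x, hx, hxp, hxy⟩ := h3
    have h4 : ∀ x ∈ D, x ^ p = 1 → ∃ y ∈ D, y ^ p = x := hc
    obtain ⟨y, hy, hyx⟩ := forall_pow_equiv e.symm h4 x hx hxp
    exact hxy y hy hyx

end Transfer

end P179H351
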