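import Vale.Agent.P179.R2.H292.Fin2
import Vale.Agent.P179.R2.H292.Hyp
import Vale.Agent.P179.R2.H351.Foc

/-!
# The final induction for classes of abelian `p`-groups closed under direct factors
-/

namespace P179H351

open Subgroup P179H524 P179R P179Y MonoidAlgebra P179H292

open P179B (inertialIndex inertialGroup regularElements)

open scoped Classical

universe u

/-- `K` is a direct factor of the abelian group `D` -/
def IsFactor {G : Type*} [Group G] (D K : Subgroup G) : Prop :=
  K ≤ D ∧ ∃ C ≤ D, (∀ x ∈ C, x ∈ K → x = 1) ∧ ∀ d ∈ D, ∃ c ∈ C, ∃ x ∈ K, d = c * x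

/-- the equality holds for the direct factors of `D` of exponent at most `p ^ a` -/
def FacSolved (p : ℕ) {k : Type u} [Field k] (red : integralClosure ℤ ℂ →+* k) (a : ℕ)
    {G : Type*} [Group G] (D : Subgroup G) : Prop :=
  ∀ K : Subgroup G, IsFactor D K → (∀ x ∈ K, x ^ p ^ a = 1) → EqFor p red K

/-- the congruence modulo `p ^ (a + 1)`, relative to the direct factors of exponent at most
`p ^ a` -/
def W7Stmt (p : ℕ) (k : Type u) [Field k] (red : integralClosure ℤ ℂ →+* k) : Prop :=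
  ∀ (G : Type) [Group G] [Finite G] (B : MonoidAlgebra k G) (D : Subgroup G)
    (β : MonoidAlgebra k (centralizer (D : Set G))) (a : ℕ), P179B.IsBlock B →
    P179B.IsDefectGroup B D → (∀ x ∈ D, ∀ y ∈ D, x * y = y * x) → P179B.IsBlock β →
    P179B.InducesTo β B → (∃ d ∈ D, d ^ p ^ a ≠ 1) → FacSolved p red a D →
    (p : ℤ) ^ (a + 1) ∣ (P179B.numSimpleIn B : ℤ) - P179B.numWeightsIn p red B

/-- the data of a regular coset, for all subgroups `T` which may be inertial groups -/
def HasRegCoset (p : ℕ) {G : Type*} [Group G] (D T : Subgroup G) : Prop :=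
  ∃ (a j o : ℕ) (w : G), (∃ d ∈ D, d ^ p ^ a ≠ 1) ∧ 1 ≤ j ∧ w ∈ D ∧ 0 < o ∧
    (∀ i : ℕ, (∃ d ∈ D, w ^ i = d ^ p ^ j) → o ∣ i) ∧
    (∀ n ∈ T, (∃ d ∈ D, n * w * n⁻¹ * w⁻¹ = d ^ p ^ j) → n ∈ centralizer (D : Set G)) ∧
    (centralizer (D : Set G)).relIndex T * Nat.card D < p ^ (2 * j) *
      Nat.card {u : G // u ∈ D ∧ ∀ n ∈ T, n * u * n⁻¹ = u → n ∈ centralizer (D : Set G)} ∧
    Nat.card D * p ≤ p ^ (a + 1) * (Nat.card {y : G // ∃ d ∈ D, d ^ p ^ j = y} * o) ∧
    (centralizer (D : Set G)).relIndex T ≤ p ^ (a + 1)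

/-- a class of finite abelian `p`-groups, closed under isomorphisms and direct factors, whose
members are solved or have regular cosets for all inertial groups -/
structure SolvClass (p : ℕ) {k : Type u} [Field k] (red : integralClosure ℤ ℂ →+* k)
    (Cl : ∀ (X : Type) [Group X], Subgroup X → Prop) : Prop where
  /-- closed under isomorphisms -/
  iso : ∀ (X Y : Type) [Group X] [Group Y] (K : Subgroup X) (D : Subgroup Y), (K ≃* D) →
    Cl X K → Cl Y D
  /-- closed under direct factors -/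
  fac : ∀ (X : Type) [Group X] [Finite X] (D K : Subgroup X), Cl X D →
    (∀ x ∈ D, ∀ y ∈ D, x * y = y * x) → IsPGroup p D → IsFactor D K → Cl X K
  /-- the members are solved or have regular cosets -/
  reg : ∀ (X : Type) [Group X] [Finite X] (D T : Subgroup X), Cl X D →
    (∀ x ∈ D, ∀ y ∈ D, x * y = y * x) → IsPGroup p D → T ≤ normalizer (D : Set X) →
    centralizer (D : Set X) ≤ T → ¬ p ∣ (centralizer (D : Set X)).relIndex T →
    EqFor p red D ∨ HasRegCoset p D T

section

variable {p : ℕ} [hp : Fact p.Prime] {k : Type u} [Field k] [IsAlgClosed k] [CharP k p]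
  (red : integralClosure ℤ ℂ →+* k)

/-- **the equality for all blocks with defect group in the class** -/
theorem eqFor_of_class (h7 : M7Stmt p k) (hW7 : W7Stmt p k red)
    {Cl : ∀ (X : Type) [Group X], Subgroup X → Prop} (hCl : SolvClass p red Cl) :
    ∀ (N : ℕ) (G : Type) [Group G] [Finite G] (K : Subgroup G), Nat.card K = N →
      (∀ x ∈ K, ∀ y ∈ K, x * y = y * x) → Cl G K → EqFor p red K := by
  intro N
  induction N using Nat.strong_induction_on with
  | _ N ih =>
  intro G _ _ K hN habK hK X _ _ B D hB hDB ⟨e⟩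
  -- the defect group `D` is in the class
  have hDcl : Cl X D := hCl.iso G X K D e hK
  have hab : ∀ x ∈ D, ∀ y ∈ D, x * y = y * x := by
    intro a ha b hb
    have h1 : e.symm ⟨a, ha⟩ * e.symm ⟨b, hb⟩ = e.symm ⟨b, hb⟩ * e.symm ⟨a, ha⟩ :=
      Subtype.ext (habK _ (e.symm ⟨a, ha⟩).2 _ (e.symm ⟨b, hb⟩).2)
    rw [← map_mul, ← map_mul] at h1
    exact congrArg Subtype.val (e.symm.injective h1)
  have hcard : Nat.card D = N := by
    rw [← hN]
    exact (Nat.card_congr e.toEquiv).symm
  have hB' : P179B.IsBlock B := hB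
  have hDB' : P179B.IsDefectGroup B D := hDB
  have hD : IsPGroup p D := isPGroup_of_defect (p := p) hB' hDB'
  obtain ⟨β, hβ, hβB⟩ := P179B.exists_root p hB' hDB'
  obtain ⟨hwe, hnd⟩ := numWeights_le red hB' hDB' hab hβ hβB
  have hTN : inertialGroup D β ≤ normalizer (D : Set X) := fun n hn => hn.1
  have hCT : centralizer (D : Set X) ≤ inertialGroup D β := by
    have := Fintype.ofFinite X
    obtain ⟨l, hl, hlz, hlb⟩ := exists_BP_of_subblock (p := p) hB' hDB' hab hβ
      ((P179B.inducesTo_iff β B).1 hβB)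
    rw [← stabT_eq_inertialGroup hβ hlb]
    exact cent_le_stabT D l
  rcases hCl.reg X D (inertialGroup D β) hDcl hab hD hTN hCT hnd with h | h
  · exact h X B D hB hDB ⟨MulEquiv.refl _⟩
  obtain ⟨a, j, o, w, hex, hj, hw, ho0, ho, hreg, hii, hcd, he⟩ := h
  -- the direct factors of smaller exponent are solved
  have hfac : FacSolved p red a D := by
    intro K' hK' hexp
    have habK' : ∀ x ∈ K', ∀ y ∈ K', x * y = y * x := fun x hx y hy =>
      hab x (hK'.1 hx) y (hK'.1 hy)
    refine ih (Nat.card K') ?_ X K' rfl habK' (hCl.fac X D K' hDcl hab hD hK')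
    rw [← hcard]
    refine lt_of_le_of_ne (Subgroup.card_le_of_le hK'.1) fun h => ?_
    have h1 : K' = D := Subgroup.eq_of_le_of_card_ge hK'.1 h.ge
    obtain ⟨d, hd, hd1⟩ := hex
    exact hd1 (hexp d (by rw [h1]; exact hd))
  have hdvd := hW7 X B D β a hB' hDB' hab hβ hβB hex hfac
  have hmod : P179B.numSimpleIn B ≡ P179B.numWeightsIn p red B [MOD p ^ (a + 1)] := by
    rw [← Int.natCast_modEq_iff]
    refine Int.ModEq.symm ((Int.modEq_iff_dvd).2 ?_)
    exact_mod_cast hdvd
  have hl0 : 0 < P179B.numSimpleIn B := by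
    rw [P179B.numSimpleIn_eq]
    exact P179C.numSimpleIn_pos B hB
  have h1 := h7 X B D β j o w hB' hDB' hab hβ hβB hj hw ho hreg hii
  have hY : 0 < Nat.card {y : X // ∃ d ∈ D, d ^ p ^ j = y} := by
    rw [Nat.card_pos_iff]
    exact ⟨⟨⟨1, 1, one_mem D, one_pow _⟩⟩, inferInstance⟩
  have hl : P179B.numSimpleIn B ≤ p ^ (a + 1) := by
    have h2 : P179B.numSimpleIn B * (Nat.card {y : X // ∃ d ∈ D, d ^ p ^ j = y} * o) ≤
        p ^ (a + 1) * (Nat.card {y : X // ∃ d ∈ D, d ^ p ^ j = y} * o) := by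
      rw [← mul_assoc]
      exact h1.trans hcd
    exact Nat.le_of_mul_le_mul_right h2 (Nat.mul_pos hY ho0)
  have h3 := eq_of_modEq_le hmod hl0 hl (numWeights_pos red hB' hDB' hab) (hwe.trans he)
  rwa [P179B.numSimpleIn_eq, P179B.numWeightsIn_eq] at h3

/-- **the equality for all blocks with abelian defect group `D` such that `[D, T]` is in the
class** -/
theorem eq_of_class (hW : WatX p k) (h7 : M7Stmt p k) (hW7 : W7Stmt p k red)
    {Cl : ∀ (X : Type) [Group X], Subgroup X → Prop} (hCl : SolvClass p red Cl)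
    {G : Type} [Group G] [Finite G] {B : MonoidAlgebra k G} (hB : P179B.IsBlock B)
    {D : Subgroup G} (hD : P179B.IsDefectGroup B D) (hab : ∀ a ∈ D, ∀ b ∈ D, a * b = b * a)
    {β : MonoidAlgebra k (centralizer (D : Set G))} (hβ : P179B.IsBlock β)
    (hβB : P179B.InducesTo β B) (h : Cl G (⁅inertialGroup D β, D⁆ : Subgroup G)) :
    P179B.numSimpleIn B = P179B.numWeightsIn p red B := by
  have hTN : inertialGroup D β ≤ normalizer (D : Set G) := fun n hn => hn.1
  have hK : (⁅inertialGroup D β, D⁆ : Subgroup G) ≤ D := comm_le hTN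
  have h1 := eqFor_of_class red h7 hW7 hCl _ G (⁅inertialGroup D β, D⁆ : Subgroup G) rfl
    (fun x hx y hy => hab x (hK hx) y (hK hy)) h
  rw [P179B.numSimpleIn_eq, P179B.numWeightsIn_eq]
  exact eq_of_hyp red hW (P179H450.defQuo p k) _ G rfl B D β hB hD hab hβ
    ((P179B.inducesTo_iff β B).1 hβB) h1

end

end P179H351
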