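import Vale.Agent.P179.R2.H351.Ind4
import Vale.Agent.P179.R2.H92.ClsDef
import Vale.Agent.P179.R2.H292.FinalF
import Vale.Agent.P179.R2.H843.WatX
import Vale.Agent.P179.R2.H443.BdSqF

/-!
# The class `GrowingFactors`
-/

namespace P179H351

open Subgroup P179H524 P179R P179Y MonoidAlgebra P179H292

open P179B (inertialIndex inertialGroup regularElements GrowingFactors hyperfocal RankTwoNotElem
  LargeRank)

open scoped Classical

universe u

/-- the class is closed under isomorphisms -/
def IsoGrow (p : ℕ) : Prop :=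
  ∀ (X Y : Type) [Group X] [Group Y] (K : Subgroup X) (D : Subgroup Y), (K ≃* D) →
    GrowingFactors p K → GrowingFactors p D

/-- the class is closed under direct factors -/
def FacGrow (p : ℕ) : Prop :=
  ∀ (X : Type) [Group X] [Finite X] (D K : Subgroup X), GrowingFactors p D →
    (∀ x ∈ D, ∀ y ∈ D, x * y = y * x) → IsPGroup p D → IsFactor D K → GrowingFactors p K

/-- regular cosets for the groups of the class of rank at least three -/
def RegGrow (p : ℕ) : Prop :=
  ∀ (X : Type) [Group X] [Finite X] (D T : Subgroup X) (r : ℕ), GrowingFactors p D →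
    (∀ x ∈ D, ∀ y ∈ D, x * y = y * x) → IsPGroup p D → T ≤ normalizer (D : Set X) →
    centralizer (D : Set X) ≤ T → ¬ p ∣ (centralizer (D : Set X)).relIndex T →
    Nat.card {x : X // x ∈ D ∧ x ^ p = 1} = p ^ r → 3 ≤ r → HasRegCoset p D T

section Rank

variable {p : ℕ} [hp : Fact p.Prime] {X : Type} [Group X] [Finite X] {D : Subgroup X}

/-- the rank of an abelian `p`-group -/
theorem exists_rank (hab : ∀ x ∈ D, ∀ y ∈ D, x * y = y * x) (hD : IsPGroup p D) :
    ∃ r : ℕ, Nat.card {x : X // x ∈ D ∧ x ^ p = 1} = p ^ r := by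
  let H : Subgroup D :=
    { carrier := {x | x ^ p = 1}
      one_mem' := one_pow p
      mul_mem' := by
        intro a b (ha : a ^ p = 1) (hb : b ^ p = 1)
        have hc : Commute a b := Subtype.ext (hab a a.2 b b.2)
        change (a * b) ^ p = 1
        rw [hc.mul_pow, ha, hb, one_mul]
      inv_mem' := by
        intro a (ha : a ^ p = 1)
        change a⁻¹ ^ p = 1
        rw [inv_pow, ha, inv_one] }
  have hH : IsPGroup p H := hD.to_subgroup H
  obtain ⟨r, hr⟩ := (IsPGroup.iff_card).1 hH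
  refine ⟨r, ?_⟩
  rw [← hr]
  refine Nat.card_congr
    { toFun := fun x => ⟨⟨x, x.2.1⟩, Subtype.ext x.2.2⟩
      invFun := fun x => ⟨((x : D) : X), (x : D).2, congrArg Subtype.val x.2⟩
      left_inv := fun x => rfl
      right_inv := fun x => rfl }

theorem rankTwo_of_growing (h : GrowingFactors p D)
    (hr : Nat.card {x : X // x ∈ D ∧ x ^ p = 1} = p ^ 2) : RankTwoNotElem p D := by
  refine ⟨hr, Or.inr ?_⟩
  by_contra hc
  push Not at hc
  have h1 := h 2 (by norm_num)
  have h2 : Nat.card {x : X // (∃ y ∈ D, y ^ p ^ (P179B.facN 2 - 1) = x) ∧ x ^ p = 1} = 1 := by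
    rw [Nat.card_eq_one_iff_unique]
    refine ⟨⟨fun a b => ?_⟩, ⟨⟨1, ⟨1, one_mem D, one_pow _⟩, one_pow _⟩⟩⟩
    have h3 : ∀ a : {x : X // (∃ y ∈ D, y ^ p ^ (P179B.facN 2 - 1) = x) ∧ x ^ p = 1},
        (a : X) = 1 := by
      rintro ⟨a, ⟨y, hy, hya⟩, -⟩
      have h4 : P179B.facN 2 - 1 = 1 := rfl
      rw [h4, pow_one] at hya
      change a = 1
      rw [← hya, hc y hy]
    exact Subtype.ext ((h3 a).trans (h3 b).symm)
  rw [h2, hr, mul_one] at h1
  have h5 : p ^ (2 - 1) < p ^ 2 := Nat.pow_lt_pow_right hp.out.one_lt (by norm_num)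
  omega

theorem largeRank_of_le_one {r : ℕ} (hr1 : r ≤ 1)
    (hr : Nat.card {x : X // x ∈ D ∧ x ^ p = 1} = p ^ r) : LargeRank p D := by
  refine ⟨r, 1, 1, hr1, ?_, ?_, hr, fun x hx _ => ⟨x, hx, ?_⟩⟩
  · have : r * (r + 1) ≤ 1 * (1 + 1) := Nat.mul_le_mul hr1 (by omega)
    omega
  · omega
  · rw [Nat.sub_self, pow_zero, pow_one]

end Rank

section

variable {p : ℕ} [hp : Fact p.Prime] {k : Type u} [Field k] [IsAlgClosed k] [CharP k p]
  (red : integralClosure ℤ ℂ →+* k)

/-- the class `GrowingFactors` satisfies the hypotheses of the induction -/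
theorem solvClass_growing (hp2 : p ≠ 2) (hiso : IsoGrow p) (hfac : FacGrow p)
    (hreg : RegGrow p) :
    SolvClass p red (fun (X : Type) [Group X] (K : Subgroup X) => GrowingFactors p K) := by
  refine ⟨fun X Y _ _ K D e h => hiso X Y K D e h,
    fun X _ _ D K h hab hD hK => hfac X D K h hab hD hK, ?_⟩
  intro X _ _ D T h hab hD hTN hCT hT
  obtain ⟨r, hr⟩ := exists_rank hab hD
  rcases Nat.lt_or_ge r 3 with h3 | h3
  · left
    rcases Nat.lt_or_ge r 2 with h2 | h2
    · exact eqFor_largeRank red hp2 hab (largeRank_of_le_one (by omega) hr)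
    · have h4 : r = 2 := by omega
      subst h4
      exact eqFor_rankTwo red (P179H443.bdSq red hp2) hp2 hab (rankTwo_of_growing h hr)
  · exact Or.inr (hreg X D T r h hab hD hTN hCT hT hr h3)

/-- **the equality for all blocks with abelian defect group `D` such that `[D, T]` has few small
cyclic factors** -/
theorem eq_of_growing (hp2 : p ≠ 2) (hW7 : W7Stmt p k red) (hiso : IsoGrow p) (hfac : FacGrow p)
    (hreg : RegGrow p) {G : Type} [Group G] [Finite G] {B : MonoidAlgebra k G}
    (hB : P179B.IsBlock B) {D : Subgroup G} (hD : P179B.IsDefectGroup B D)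
    (hab : ∀ a ∈ D, ∀ b ∈ D, a * b = b * a) {β : MonoidAlgebra k (centralizer (D : Set G))}
    (hβ : P179B.IsBlock β) (hβB : P179B.InducesTo β B) (h : GrowingFactors p (hyperfocal D β)) :
    P179B.numSimpleIn B = P179B.numWeightsIn p red B := by
  rw [hyperfocal_eq] at h
  exact eq_of_class red (P179H843.watX p k) (P179H452.m7Stmt red hp2) hW7
    (solvClass_growing red hp2 hiso hfac hreg) hB hD hab hβ hβB h

/-- the same for `D` itself -/
theorem eq_of_growing_self (hp2 : p ≠ 2) (hW7 : W7Stmt p k red) (hiso : IsoGrow p)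
    (hfac : FacGrow p) (hreg : RegGrow p) {G : Type} [Group G] [Finite G] {B : MonoidAlgebra k G}
    (hB : P179B.IsBlock B) {D : Subgroup G} (hD : P179B.IsDefectGroup B D)
    (hab : ∀ a ∈ D, ∀ b ∈ D, a * b = b * a) (h : GrowingFactors p D) :
    P179B.numSimpleIn B = P179B.numWeightsIn p red B := by
  have h1 := eqFor_of_class red (P179H452.m7Stmt red hp2) hW7
    (solvClass_growing red hp2 hiso hfac hreg) _ G D rfl hab h G B D hB hD ⟨MulEquiv.refl _⟩
  rw [P179B.numSimpleIn_eq, P179B.numWeightsIn_eq]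
  exact h1

end

end P179H351
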