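import Vale.Agent.P179.R2.H351.Hom

/-!
# Supports of the elements of `k[Hz] e`, `H = C_G(P)`, which commute with `H`
-/

namespace P179H351

open Subgroup Finset P179H524 P179C P179A P179P P179Y P179H292

open scoped Classical

universe u

section Supp

variable {k : Type u} [Field k] {G : Type} [Group G]

theorem invOn_cj_of {K K0 : Subgroup G} {n : G} (hK : ∀ x, x ∈ K ↔ n⁻¹ * x * n ∈ K0) {a : G → k}
    (ha : InvOn K0 a) : InvOn K (cj n a) := by
  constructor
  · intro h hh x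
    unfold cj
    have h1 := ha.1 _ ((hK h).1 hh) (n⁻¹ * x * n)
    have e : n⁻¹ * h * n * (n⁻¹ * x * n) * (n⁻¹ * h * n)⁻¹ = n⁻¹ * (h * x * h⁻¹) * n := by group
    rw [e] at h1
    exact h1
  · intro x hx
    unfold cj
    exact ha.2 _ fun h => hx ((hK x).2 h)

theorem mem_cent_zpowers {u x : G} :
    x ∈ centralizer ((zpowers u : Subgroup G) : Set G) ↔ u * x = x * u := by
  rw [mem_centralizer_iff]
  constructor
  · intro h
    exact h u (mem_zpowers u)
  · rintro h _ ⟨i, rfl⟩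
    exact ((show Commute u x from h).zpow_left i)

variable {p : ℕ} [hp : Fact p.Prime] [IsAlgClosed k] [CharP k p] [Fintype G]

theorem supp_aux {D P H : Subgroup G} (hH : H = centralizer (P : Set G)) {l : (G → k) → k}
    (hl : BP p D l) (hD : IsPGroup p D)
    (hab : D ≤ centralizer (D : Set G)) (hPD : P ≤ D)
    (hnil : ∀ n ∈ stabT D l, n ∈ H → n ∈ centralizer (D : Set G))
    {z : G} (hz : z ∈ stabT D l) (hzP : z ∈ normalizer (P : Set G)) {e f : G → k}
    (he : InvOn H e) (hblock : IsBlock (mkF (fun h : H => e h))) (hle : l e = 1)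
    (hfs : ∀ g, f g ≠ 0 → g * z⁻¹ ∈ H)
    (hfi : ∀ h ∈ H, ∀ g, f (h * g * h⁻¹) = f g) (hef : conv e f = f)
    {u g : G} (hu : u ∈ H) (hup : ∃ n : ℕ, u ^ p ^ n = 1) (hg : f g ≠ 0)
    (hug : u * g = g * u) :
    ∃ h ∈ H, h⁻¹ * u * h ∈ D ∧ z * (h⁻¹ * u * h) * z⁻¹ = h⁻¹ * u * h := by
  have hCH : centralizer (D : Set G) ≤ H := by
    rw [hH]
    exact centralizer_le (SetLike.coe_subset_coe.2 hPD)
  have hDH : D ≤ H := hab.trans hCH
  have hPH : P ≤ H := hPD.trans hDH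
  -- conjugation by `z` and `g`
  have nz : ∀ h ∈ H, z * h * z⁻¹ ∈ H := by
    intro h hh
    rw [hH] at hh ⊢
    exact (conj_mem_cent hzP h).2 hh
  have nz' : ∀ h ∈ H, z⁻¹ * h * z ∈ H := by
    intro h hh
    rw [hH] at hh ⊢
    have := (conj_mem_cent (inv_mem hzP) h).2 hh
    rwa [inv_inv] at this
  have ha := hfs g hg
  have gH : ∀ h ∈ H, g * h * g⁻¹ ∈ H := by
    intro h hh
    have e1 : g * h * g⁻¹ = g * z⁻¹ * (z * h * z⁻¹) * (g * z⁻¹)⁻¹ := by group
    rw [e1]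
    exact mul_mem (mul_mem ha (nz h hh)) (inv_mem ha)
  have gH' : ∀ h ∈ H, g⁻¹ * h * g ∈ H := by
    intro h hh
    have e1 : g⁻¹ * h * g = z⁻¹ * ((g * z⁻¹)⁻¹ * h * (g * z⁻¹)) * z := by group
    rw [e1]
    exact nz' _ (mul_mem (mul_mem (inv_mem ha) hh) ha)
  let U : Subgroup G := zpowers u
  have hUp : IsPGroup p U := by
    obtain ⟨n, hn⟩ := hup
    rintro ⟨_, i, rfl⟩
    refine ⟨n, Subtype.ext ?_⟩
    change (u ^ i) ^ p ^ n = 1
    rw [← zpow_natCast, ← zpow_mul, mul_comm, zpow_mul, zpow_natCast, hn, one_zpow]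
  have hUH : U ≤ H := (zpowers_le).2 hu
  have hgU : g ∈ centralizer (U : Set G) := mem_cent_zpowers.2 hug
  let K : Subgroup G := H ⊓ centralizer (U : Set G)
  have hK1 : ∀ c ∈ K, c ∈ H := fun c hc => (Subgroup.mem_inf.1 hc).1
  have hK2 : ∀ c ∈ K, c ∈ centralizer (U : Set G) := fun c hc => (Subgroup.mem_inf.1 hc).2
  have hgK : ∀ c ∈ K, g * c * g⁻¹ ∈ K := fun c hc =>
    Subgroup.mem_inf.2 ⟨gH c (hK1 c hc), mul_mem (mul_mem hgU (hK2 c hc)) (inv_mem hgU)⟩
  have hgK' : ∀ c ∈ K, g⁻¹ * c * g ∈ K := fun c hc =>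
    Subgroup.mem_inf.2 ⟨gH' c (hK1 c hc), mul_mem (mul_mem (inv_mem hgU) (hK2 c hc)) hgU⟩
  have hcutinv : ∀ a : G → k, (∀ h ∈ H, ∀ x, a (h * x * h⁻¹) = a x) →
      ∀ c ∈ K, ∀ x, cutC U a (c * x * c⁻¹) = cutC U a x := by
    intro a ha c hc x
    have e1 : c * x * c⁻¹ ∈ centralizer (U : Set G) ↔ x ∈ centralizer (U : Set G) := by
      constructor
      · intro h
        have h1 := mul_mem (mul_mem (inv_mem (hK2 c hc)) h) (hK2 c hc)
        have e1 : c⁻¹ * (c * x * c⁻¹) * c = x := by group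
        rwa [e1] at h1
      · intro h
        exact mul_mem (mul_mem (hK2 c hc) h) (inv_mem (hK2 c hc))
    unfold cutC
    simp only [e1, ha c (hK1 c hc) x]
  have he2 : InvOn K (cutC U e) := by
    refine ⟨hcutinv e he.1, fun x hx => ?_⟩
    unfold cutC
    by_cases h : x ∈ centralizer (U : Set G)
    · rw [if_pos h]
      exact he.2 x fun h1 => hx (Subgroup.mem_inf.2 ⟨h1, h⟩)
    · rw [if_neg h]
  have hf2 := hcutinv f hfi
  have hf2s : ∀ x, cutC U f x ≠ 0 → x * g⁻¹ ∈ K := by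
    intro x hx
    by_cases h : x ∈ centralizer (U : Set G)
    · unfold cutC at hx
      rw [if_pos h] at hx
      have h1 := hfs x hx
      refine Subgroup.mem_inf.2 ⟨?_, mul_mem h (inv_mem hgU)⟩
      have e1 : x * g⁻¹ = x * z⁻¹ * (g * z⁻¹)⁻¹ := by group
      rw [e1]
      exact mul_mem h1 (inv_mem ha)
    · exfalso
      apply hx
      unfold cutC
      rw [if_neg h]
  have hf20 : cutC U f ≠ 0 := by
    intro h
    have h1 := congrFun h g
    unfold cutC at h1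
    rw [if_pos hgU] at h1
    exact hg h1
  have hconv : ∀ a : G → k, (∀ h ∈ H, ∀ x, a (h * x * h⁻¹) = a x) → conv e a = a →
      conv (cutC U e) (cutC U a) = cutC U a := by
    intro a ha hea
    funext x
    by_cases h : x ∈ centralizer (U : Set G)
    · rw [← conv_cut p U hUp (fun d hd => he.1 d (hUH hd)) (fun d hd => ha d (hUH hd)) h, hea]
      unfold cutC
      rw [if_pos h]
    · have h2 : cutC U a x = 0 := by
        unfold cutC
        rw [if_neg h]
      rw [h2]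
      unfold conv
      refine Finset.sum_eq_zero fun y _ => ?_
      unfold cutC
      by_cases hy : y ∈ centralizer (U : Set G)
      · rw [if_neg (c := y⁻¹ * x ∈ centralizer (U : Set G)), mul_zero]
        intro h1
        apply h
        have h3 := mul_mem hy h1
        rwa [mul_inv_cancel_left] at h3
      · rw [if_neg hy, zero_mul]
  obtain ⟨μ, hμ, hμe, hμg⟩ := exists_stable_hom hf20 hf2 hf2s hgK hgK' he2 (hconv f hfi hef)
  -- a maximal pair of the block
  obtain ⟨R, l2, hRp, hl2, hl2μ, hRc⟩ := exists_BP (p := p) hμ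
  have huU : u ∈ centralizer (U : Set G) := mem_cent_zpowers.2 rfl
  have huK : u ∈ K := ⟨hu, huU⟩
  have hPK : P ≤ K := by
    intro q hq
    refine ⟨hPH hq, mem_cent_zpowers.2 ?_⟩
    rw [hH] at hu
    exact (mem_centralizer_iff.1 hu q hq).symm
  have huR : (⟨u, huK⟩ : K) ∈ R := by
    refine hRc _ ?_ ?_
    · rw [Subgroup.mem_center_iff]
      intro x
      apply Subtype.ext
      exact (mem_cent_zpowers.1 (hK2 _ x.2)).symm
    · obtain ⟨n, hn⟩ := hup
      exact ⟨n, Subtype.ext hn⟩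
  have hPR : ∀ q (hq : q ∈ P), (⟨q, hPK hq⟩ : K) ∈ R := by
    intro q hq
    refine hRc _ ?_ ?_
    · rw [Subgroup.mem_center_iff]
      intro x
      apply Subtype.ext
      have h1 : (x : G) ∈ centralizer (P : Set G) := hH ▸ hK1 _ x.2
      exact (mem_centralizer_iff.1 h1 q hq).symm
    · obtain ⟨n, hn⟩ := hD ⟨q, hPD hq⟩
      have h1 : q ^ p ^ n = 1 := by simpa using congrArg Subtype.val hn
      exact ⟨n, Subtype.ext h1⟩
  let D' : Subgroup G := R.map K.subtype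
  have huD' : u ∈ D' := ⟨_, huR, rfl⟩
  have hPD' : P ≤ D' := fun q hq => ⟨_, hPR q hq, rfl⟩
  have hC' : centralizer (D' : Set G) ≤ K := by
    intro x hx
    refine ⟨?_, ?_⟩
    · rw [hH]
      exact centralizer_le (SetLike.coe_subset_coe.2 hPD') hx
    · exact mem_cent_zpowers.2 (mem_centralizer_iff.1 hx u huD')
  have hl3 : BP p D' (exL K l2) := BP.extend hl2 hC'
  have hKH : K ≤ H := inf_le_left
  have hD'K : D' ≤ K := by
    rintro _ ⟨x, -, rfl⟩
    exact x.2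
  have hl3K : ∀ w, InvOn K w → exL K l2 w = μ (fun h : K => w h) := by
    intro w hw
    unfold exL
    exact hl2μ _ (isCF_res hw)
  have hl3e : exL K l2 e = 1 := by
    have h1 : exL K l2 e = exL K l2 (cutC U e) := by
      unfold exL
      congr 1
      funext h
      unfold cutC
      rw [if_pos (hK2 _ h.2)]
    rw [h1, hl3K _ he2, hμe]
  -- conjugacy of the two pairs in `H`
  have hlH := hl.restrict hDH hCH
  have hl3H := hl3.restrict (hD'K.trans hKH) (hC'.trans hKH)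
  have hprim : Prim (⟨mkF (fun h : H => e h), mkF_mem (isCF_res he)⟩ :
      Subalgebra.center k (MonoidAlgebra k H)) := (isBlock_iff_prim _).1 hblock
  have hext : ext H (fun h : H => e h) = e := ext_restr' he.2
  have hD'p : IsPGroup p D' := hRp.map _
  obtain ⟨h, hh1, hh2⟩ := FDc hlH hD.comap_subtype (by
    intro a ha b hb
    exact Subtype.ext (mem_centralizer_iff.1 (hab hb) a ha)) (by
    rw [relIndex_eq_one.2]
    · exact fun h => hp.out.one_lt.ne' (Nat.dvd_one.1 h)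
    · intro n hn
      rw [mem_stabT_lres hDH hCH] at hn
      rw [mem_cent_subgroupOf hDH]
      exact hnil n hn n.2) hl3H hD'p.comap_subtype (by
    intro w hw
    refine homCF_eq (hl3H.isHomCF' hD'p.comap_subtype) (hlH.isHomCF' hD.comap_subtype)
      (isCF_res he) hprim ?_ ?_ hw
    · unfold lres
      rw [hext, hl3e]
    · unfold lres
      rw [hext, hle])
  have hmem : ∀ x ∈ H, (x ∈ D' ↔ (h : G)⁻¹ * x * h ∈ D) := by
    intro x hx
    have := hh1 ⟨x, hx⟩
    rw [mem_subgroupOf, mem_subgroupOf] at this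
    exact this
  have hu0 : (h : G)⁻¹ * u * h ∈ D := (hmem u hu).1 huD'
  refine ⟨h, h.2, hu0, ?_⟩
  set h0 : G := (h : G) with hh0
  set u0 : G := h0⁻¹ * u * h0 with hu0def
  set g0 : G := h0⁻¹ * g * h0 with hg0def
  have hu0g0 : u0 * g0 = g0 * u0 := by
    have e1 : u0 * g0 = h0⁻¹ * (u * g) * h0 := by rw [hu0def, hg0def]; group
    have e2 : g0 * u0 = h0⁻¹ * (g * u) * h0 := by rw [hu0def, hg0def]; group
    rw [e1, e2, hug]
  let K0 : Subgroup G := H ⊓ centralizer ((zpowers u0 : Subgroup G) : Set G)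
  have hKK0 : ∀ x, x ∈ K ↔ h0⁻¹ * x * h0 ∈ K0 := by
    intro x
    have e1 : x ∈ H ↔ h0⁻¹ * x * h0 ∈ H := by
      constructor
      · intro hx
        exact mul_mem (mul_mem (inv_mem h.2) hx) h.2
      · intro hx
        have h1 := mul_mem (mul_mem h.2 hx) (inv_mem h.2)
        have e1 : (h : G) * (h0⁻¹ * x * h0) * (h : G)⁻¹ = x := by rw [hh0]; group
        rwa [e1] at h1
    have e2 : x ∈ centralizer (U : Set G) ↔
        h0⁻¹ * x * h0 ∈ centralizer ((zpowers u0 : Subgroup G) : Set G) := by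
      rw [mem_cent_zpowers, mem_cent_zpowers]
      have e3 : u0 * (h0⁻¹ * x * h0) = h0⁻¹ * (u * x) * h0 := by rw [hu0def]; group
      have e4 : h0⁻¹ * x * h0 * u0 = h0⁻¹ * (x * u) * h0 := by rw [hu0def]; group
      rw [e3, e4, mul_left_inj, mul_right_inj]
    exact and_congr e1 e2
  have hg0U : g0 ∈ centralizer ((zpowers u0 : Subgroup G) : Set G) := mem_cent_zpowers.2 hu0g0
  have hg0K : ∀ c ∈ K0, g0 * c * g0⁻¹ ∈ K0 := by
    intro c hc
    have h1 : h0 * c * h0⁻¹ ∈ K := by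
      rw [hKK0]
      have e1 : h0⁻¹ * (h0 * c * h0⁻¹) * h0 = c := by group
      rwa [e1]
    have h2 := (hKK0 _).1 (hgK _ h1)
    have e1 : h0⁻¹ * (g * (h0 * c * h0⁻¹) * g⁻¹) * h0 = g0 * c * g0⁻¹ := by
      rw [hg0def]; group
    rwa [e1] at h2
  have hg0K' : ∀ c ∈ K0, g0⁻¹ * c * g0 ∈ K0 := by
    intro c hc
    have h1 : h0 * c * h0⁻¹ ∈ K := by
      rw [hKK0]
      have e1 : h0⁻¹ * (h0 * c * h0⁻¹) * h0 = c := by group
      rwa [e1]
    have h2 := (hKK0 _).1 (hgK' _ h1)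
    have e1 : h0⁻¹ * (g⁻¹ * (h0 * c * h0⁻¹) * g) * h0 = g0⁻¹ * c * g0 := by
      rw [hg0def]; group
    rwa [e1] at h2
  have hDU : D ≤ centralizer ((zpowers u0 : Subgroup G) : Set G) := by
    intro d hd
    exact mem_cent_zpowers.2 (mem_centralizer_iff.1 (hab hd) u0 hu0)
  have hDK0 : D ≤ K0 := le_inf hDH hDU
  have hCK0 : centralizer (D : Set G) ≤ K0 := by
    refine le_inf hCH fun x hx => ?_
    exact mem_cent_zpowers.2 (mem_centralizer_iff.1 hx u0 hu0)
  -- the functional `l` on functions invariant under `K0`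
  have hT : ∀ w, InvOn K0 w → l w = exL K l2 (cj h0 w) := by
    intro w hw
    have hwc : InvOn (centralizer (D : Set G)) (cutC D w) :=
      invOn_cutC D fun c hc x => hw.1 c (hCK0 hc) x
    have h1 := hh2 _ (invOn_restr hDH hwc)
    rw [hl.lres_coe hCH, hl.cut] at h1
    rw [← h1]
    unfold lres
    rw [ext_cj, ext_restr' fun x hx => hwc.2 x fun h => hx (hCH h)]
    refine hl3.congr fun x hx => ?_
    unfold cj cutC
    rw [if_pos]
    rw [mem_centralizer_iff]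
    intro d hd
    have h3 : h0 * d * h0⁻¹ ∈ D' := by
      rw [hmem _ (mul_mem (mul_mem h.2 (hDH hd)) (inv_mem h.2))]
      have e1 : h0⁻¹ * (h0 * d * h0⁻¹) * h0 = d := by group
      rwa [e1]
    have h4 := mem_centralizer_iff.1 hx _ h3
    calc d * (h0⁻¹ * x * h0) = h0⁻¹ * (h0 * d * h0⁻¹ * x) * h0 := by group
      _ = h0⁻¹ * (x * (h0 * d * h0⁻¹)) * h0 := by rw [h4]
      _ = h0⁻¹ * x * h0 * d := by group
  have heq : ∀ w, InvOn K0 w → l (cj g0⁻¹ w) = l w := by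
    intro w hw
    have h1 : InvOn K0 (cj g0⁻¹ w) := invOn_cj (by
      intro c hc
      simpa using hg0K' c hc) (by
      intro c hc
      simpa using hg0K c hc) hw
    have h2 : InvOn K (cj h0 w) := invOn_cj_of hKK0 hw
    have h3 : InvOn K (cj g⁻¹ (cj h0 w)) := invOn_cj (by
      intro c hc
      simpa using hgK' c hc) (by
      intro c hc
      simpa using hgK c hc) h2
    rw [hT _ h1, hT _ hw, ← cj_mul]
    have e1 : h0 * g0⁻¹ = g⁻¹ * h0 := by rw [hg0def]; group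
    rw [e1, cj_mul, hl3K _ h3, hl3K _ h2, hμg _ h2]
  obtain ⟨c, hc, hcT⟩ := fusionH hl hD hab hDK0 hCK0 (by
    rw [relIndex_eq_one.2]
    · exact fun h => hp.out.one_lt.ne' (Nat.dvd_one.1 h)
    · intro n hn
      rw [mem_stabT_lres hDK0 hCK0] at hn
      rw [mem_cent_subgroupOf hDK0]
      exact hnil n hn n.2.1) (fun d hd => hg0K d (hDK0 hd)) heq
  -- conclusion
  have ht : c⁻¹ * g0 * z⁻¹ ∈ centralizer (D : Set G) := by
    refine hnil _ (mul_mem hcT (inv_mem hz)) ?_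
    have e1 : c⁻¹ * g0 * z⁻¹ = c⁻¹ * (h0⁻¹ * (g * z⁻¹) * (z * h0 * z⁻¹)) := by
      rw [hg0def]; group
    rw [e1]
    exact mul_mem (inv_mem hc.1) (mul_mem (mul_mem (inv_mem h.2) ha) (nz _ h.2))
  have hcu : u0 * c = c * u0 := mem_cent_zpowers.1 hc.2
  have h5 : u0 * (c⁻¹ * g0 * z⁻¹) = c⁻¹ * g0 * z⁻¹ * u0 := mem_centralizer_iff.1 ht u0 hu0
  have h6 : u0 * (c⁻¹ * g0) = c⁻¹ * g0 * u0 := by
    have h7 : u0 * c⁻¹ = c⁻¹ * u0 := (Commute.inv_right (show Commute u0 c from hcu)).eq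
    rw [← mul_assoc, h7, mul_assoc, hu0g0, ← mul_assoc]
  have h8 : u0 * z⁻¹ = z⁻¹ * u0 := by
    apply mul_left_cancel (a := c⁻¹ * g0)
    calc c⁻¹ * g0 * (u0 * z⁻¹) = c⁻¹ * g0 * u0 * z⁻¹ := by group
      _ = u0 * (c⁻¹ * g0) * z⁻¹ := by rw [h6]
      _ = u0 * (c⁻¹ * g0 * z⁻¹) := by group
      _ = c⁻¹ * g0 * z⁻¹ * u0 := h5
      _ = c⁻¹ * g0 * (z⁻¹ * u0) := by group
  calc z * u0 * z⁻¹ = z * (u0 * z⁻¹) := by group
    _ = z * (z⁻¹ * u0) := by rw [h8]
    _ = u0 := by group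

/-- **supports** (SUPP) -/
theorem supp_conj {D P : Subgroup G} {l : (G → k) → k} (hl : BP p D l) (hD : IsPGroup p D)
    (hab : D ≤ centralizer (D : Set G)) (hPD : P ≤ D)
    (hnil : ∀ n ∈ stabT D l, n ∈ centralizer (P : Set G) → n ∈ centralizer (D : Set G))
    {z : G} (hz : z ∈ stabT D l) (hzP : z ∈ normalizer (P : Set G)) {e f : G → k}
    (he : InvOn (centralizer (P : Set G)) e)
    (hblock : IsBlock (mkF (fun h : centralizer (P : Set G) => e h))) (hle : l e = 1)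
    (hfs : ∀ g, f g ≠ 0 → g * z⁻¹ ∈ centralizer (P : Set G))
    (hfi : ∀ h ∈ centralizer (P : Set G), ∀ g, f (h * g * h⁻¹) = f g) (hef : conv e f = f)
    {u g : G} (hu : u ∈ centralizer (P : Set G)) (hup : ∃ n : ℕ, u ^ p ^ n = 1) (hg : f g ≠ 0)
    (hug : u * g = g * u) :
    ∃ h ∈ centralizer (P : Set G), h⁻¹ * u * h ∈ D ∧ z * (h⁻¹ * u * h) * z⁻¹ = h⁻¹ * u * h :=
  supp_aux rfl hl hD hab hPD hnil hz hzP he hblock hle hfs hfi hef hu hup hg hug

end Supp

end P179H351
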