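import Vale.Agent.P179.R2.H351.Ind6
import Vale.Agent.P179.R2.H666.Upto
import Vale.Agent.P179.R2.H443.RelN
import Vale.Agent.P179.R2.H92.RegCls

/-!
# Outputs of the induction for the class `GrowingFactors`
-/

namespace P179H351

open Subgroup P179H524 P179R P179Y MonoidAlgebra P179H292

open P179B (inertialIndex inertialGroup regularElements GrowingFactors GrowingUpTo hyperfocal
  RankTwoNotElem)

open scoped Classical

universe u

theorem isoGrow' (p : ℕ) : IsoGrow p := fun _ _ _ _ _ _ e h => P179H666.growing_equiv e h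

theorem facGrow (p : ℕ) : FacGrow p := fun _ _ _ _ _ h hab _ hK =>
  P179H666.growing_factor hab h hK

theorem regGrow {p : ℕ} [Fact p.Prime] (hp2 : 2 < p) : RegGrow p :=
  fun _ _ _ _ _ _ hG hab hD hTN _ hT hr hr3 =>
    P179H92.hasRegCoset_of_growing hp2 hG hab hD hTN hT hr hr3

theorem upClass (p a : ℕ) :
    UpClass p a (fun (X : Type) [Group X] (K : Subgroup X) => GrowingFactors p K)
      (fun (X : Type) [Group X] (K : Subgroup X) => GrowingUpTo p a K) :=
  ⟨fun _ _ _ _ _ _ e h => P179H666.growingUpTo_equiv e h,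
    fun _ _ _ _ _ h hab _ hK hexp => P179H666.growing_of_upto hab h hK hexp⟩

section

variable {p : ℕ} [hp : Fact p.Prime] {k : Type u} [Field k] [IsAlgClosed k] [CharP k p]
  (red : integralClosure ℤ ℂ →+* k)

/-- **the congruence modulo `p ^ (a + 1)`** -/
theorem modEq_of_upto (hp2 : 2 < p) (hE : P179H443.EqwStmt p k) {a : ℕ}
    {G : Type} [Group G] [Finite G] {B : MonoidAlgebra k G}
    (hB : P179B.IsBlock B) {D : Subgroup G} (hD : P179B.IsDefectGroup B D)
    (hab : ∀ a ∈ D, ∀ b ∈ D, a * b = b * a) {β : MonoidAlgebra k (centralizer (D : Set G))}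
    (hβ : P179B.IsBlock β) (hβB : P179B.InducesTo β B) {K : Subgroup G} (hK : K = D ∨ K = hyperfocal D β)
    (h : GrowingUpTo p a K) :
    P179B.numSimpleIn B ≡ P179B.numWeightsIn p red B [MOD p ^ (a + 1)] := by
  have hp2' : p ≠ 2 := by omega
  have hCl := solvClass_growing red hp2' (isoGrow' p) (facGrow p) (regGrow hp2)
  rcases hK with rfl | rfl
  · exact modEq_of_up_self red (P179H452.m7Stmt red hp2') (P179H443.w7Stmt_of red hE) hCl
      (upClass p a) hB hD hab hβ hβB h
  · rw [hyperfocal_eq] at h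
    exact modEq_of_up red (P179H452.m7Stmt red hp2') (P179H443.w7Stmt_of red hE) hCl
      (upClass p a) hB hD hab hβ hβB h

/-- the equality for the groups of the class -/
theorem eqFor_growing (hp2 : 2 < p) (hE : P179H443.EqwStmt p k) {G : Type} [Group G] [Finite G]
    {K : Subgroup G} (hab : ∀ a ∈ K, ∀ b ∈ K, a * b = b * a) (h : GrowingFactors p K) :
    EqFor p red K :=
  eqFor_of_class red (P179H452.m7Stmt red (by omega)) (P179H443.w7Stmt_of red hE)
    (solvClass_growing red (by omega) (isoGrow' p) (facGrow p) (regGrow hp2)) _ G K rfl hab h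

/-- **the equality** -/
theorem eq_of_core (hp2 : 2 < p) (hE : P179H443.EqwStmt p k)
    {G : Type} [Group G] [Finite G] {B : MonoidAlgebra k G}
    (hB : P179B.IsBlock B) {D : Subgroup G} (hD : P179B.IsDefectGroup B D)
    (hab : ∀ a ∈ D, ∀ b ∈ D, a * b = b * a) {β : MonoidAlgebra k (centralizer (D : Set G))}
    (hβ : P179B.IsBlock β) (hβB : P179B.InducesTo β B) {K : Subgroup G} (hK : K = D ∨ K = hyperfocal D β)
    (h : GrowingFactors p K) : P179B.numSimpleIn B = P179B.numWeightsIn p red B := by
  have hp2' : p ≠ 2 := by omega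
  rcases hK with rfl | rfl
  · exact eq_of_growing_self red hp2' (P179H443.w7Stmt_of red hE) (isoGrow' p) (facGrow p)
      (regGrow hp2) hB hD hab h
  · exact eq_of_growing red hp2' (P179H443.w7Stmt_of red hE) (isoGrow' p) (facGrow p)
      (regGrow hp2) hB hD hab hβ hβB h

/-- **the equality for a block of a group with a normal `p`-subgroup `M`**, in terms of
`[D, C_T(M)]` -/
theorem eq_of_normal (hp2 : 2 < p) (hE : P179H443.EqwStmt p k)
    {G : Type} [Group G] [Finite G] (M : Subgroup G) [M.Normal] (hM : IsPGroup p M)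
    {B : MonoidAlgebra k G} (hB : P179B.IsBlock B) {D : Subgroup G}
    (hD : P179B.IsDefectGroup B D) (hab : ∀ a ∈ D, ∀ b ∈ D, a * b = b * a)
    {β : MonoidAlgebra k (centralizer (D : Set G))} (hβ : P179B.IsBlock β)
    (hβB : P179B.InducesTo β B)
    (h : GrowingFactors p (⁅inertialGroup D β ⊓ centralizer (M : Set G), D⁆ : Subgroup G) ∨
      RankTwoNotElem p (⁅inertialGroup D β ⊓ centralizer (M : Set G), D⁆ : Subgroup G)) :
    P179B.numSimpleIn B = P179B.numWeightsIn p red B := by
  have hTN : inertialGroup D β ≤ normalizer (D : Set G) := fun n hn => hn.1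
  have hle : (⁅inertialGroup D β ⊓ centralizer (M : Set G), D⁆ : Subgroup G) ≤ D :=
    comm_le (inf_le_left.trans hTN)
  have habK : ∀ x ∈ (⁅inertialGroup D β ⊓ centralizer (M : Set G), D⁆ : Subgroup G),
      ∀ y ∈ (⁅inertialGroup D β ⊓ centralizer (M : Set G), D⁆ : Subgroup G), x * y = y * x :=
    fun x hx y hy => hab x (hle hx) y (hle hy)
  have h1 : EqFor p red
      (⁅inertialGroup D β ⊓ centralizer (M : Set G), D⁆ : Subgroup G) := by
    rcases h with h | h
    · exact eqFor_growing red hp2 hE habK h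
    · exact eqFor_rankTwo red (P179H443.bdSq red (by omega)) (by omega) habK h
  rw [P179B.numSimpleIn_eq, P179B.numWeightsIn_eq]
  exact P179H443.eq_of_eqw red hE (P179H450.defQuo p k) M hM hB hD hab hβ
    ((P179B.inducesTo_iff β B).1 hβB) h1

end

end P179H351
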