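import Vale.Agent.P179.R2.H443.RelB
import Vale.Agent.P179.R2.H12.Hb4

/-!
# The final induction for classes with an action, general form
-/

namespace P179H351

open Subgroup P179H524 P179R P179Y MonoidAlgebra P179H292

open P179B (inertialIndex inertialGroup regularElements hyperfocal)

open scoped Classical

universe u

/-- `N` bounds the number of simple modules of the blocks of `G` with defect group `D` and inertial
group `T` -/
def BoundHere (k : Type u) [Field k] {G : Type*} [Group G] (D T : Subgroup G) (N : ℕ) :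
    Prop :=
  ∀ (B : MonoidAlgebra k G) (β : MonoidAlgebra k (centralizer (D : Set G))), P179B.IsBlock B →
    P179B.IsDefectGroup B D → P179B.IsBlock β → P179B.InducesTo β B → inertialGroup D β = T →
    P179B.numSimpleIn B ≤ N

/-- a class of finite abelian `p`-groups `D` with a group `T` acting on `D`, whose members are
solved, or have a bound `p ^ (a + 1)` for the number of simple modules such that the groups
`[D, F]`, `F ≤ T` centralising some `M ≠ 1` which contains `D ^ (p ^ a)`, are in the class -/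
structure SolvClassN (p : ℕ) {k : Type u} [Field k] (red : integralClosure ℤ ℂ →+* k)
    (Cl : ∀ (X : Type) [Group X], Subgroup X → Subgroup X → Prop) : Prop where
  /-- closed under isomorphisms and restriction of the action -/
  act : ∀ (X Y : Type) [Group X] [Group Y] (K T : Subgroup X) (D' T' : Subgroup Y),
    ActSub K T D' T' → Cl X K T → Cl Y D' T'
  /-- the step of the induction -/
  step : ∀ (X : Type) [Group X] [Finite X] (D T : Subgroup X), Cl X D T →
    (∀ x ∈ D, ∀ y ∈ D, x * y = y * x) → IsPGroup p D → T ≤ normalizer (D : Set X) →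
    centralizer (D : Set X) ≤ T → ¬ p ∣ (centralizer (D : Set X)).relIndex T →
    EqForAct p red D T ∨ ∃ a : ℕ, (∃ d ∈ D, d ^ p ^ a ≠ 1) ∧
      (centralizer (D : Set X)).relIndex T ≤ p ^ (a + 1) ∧ BoundHere k D T (p ^ (a + 1)) ∧
      ∀ F ≤ T, centralizer (D : Set X) ≤ F → ∀ M ≤ D, M ≠ ⊥ → (∀ d ∈ D, d ^ p ^ a ∈ M) →
        F ≤ centralizer (M : Set X) → ¬ F ≤ centralizer (D : Set X) →
        Cl X (⁅F, D⁆ : Subgroup X) (T ⊓ normalizer ((⁅F, D⁆ : Subgroup X) : Set X))

section

variable {p : ℕ} [hp : Fact p.Prime] {k : Type u} [Field k] [IsAlgClosed k] [CharP k p]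
  (red : integralClosure ℤ ℂ →+* k)

/-- **the equality for all blocks with defect group and action in the class** -/
theorem eqForAct_of_classN (hE : P179H443.EqwStmt p k)
    {Cl : ∀ (X : Type) [Group X], Subgroup X → Subgroup X → Prop}
    (hCl : SolvClassN p red Cl) :
    ∀ (N : ℕ) (G : Type) [Group G] [Finite G] (K T : Subgroup G), Nat.card K = N →
      Cl G K T → EqForAct p red K T := by
  intro N
  induction N using Nat.strong_induction_on with
  | _ N ih =>
  intro G _ _ K T hN hK X _ _ B D β hB hDB hab hβ hβB hact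
  have hB' : P179B.IsBlock B := hB
  have hDB' : P179B.IsDefectGroup B D := hDB
  have hβB' : P179B.InducesTo β B := (P179B.inducesTo_iff β B).2 hβB
  -- the defect group `D` is in the class
  have hDcl : Cl X D (inertialGroup D β) := hCl.act G X K T D _ hact hK
  have hcard : Nat.card D = N := by
    obtain ⟨e, -⟩ := hact
    rw [← hN]
    exact (Nat.card_congr e.toEquiv).symm
  have hD : IsPGroup p D := isPGroup_of_defect (p := p) hB' hDB'
  obtain ⟨hwe, hnd⟩ := numWeights_le red hB' hDB' hab hβ hβB'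
  have hTN : inertialGroup D β ≤ normalizer (D : Set X) := fun n hn => hn.1
  have hCT : centralizer (D : Set X) ≤ inertialGroup D β := by
    have := Fintype.ofFinite X
    obtain ⟨l, hl, hlz, hlb⟩ := exists_BP_of_subblock (p := p) hB' hDB' hab hβ hβB
    rw [← stabT_eq_inertialGroup hβ hlb]
    exact cent_le_stabT D l
  rcases hCl.step X D (inertialGroup D β) hDcl hab hD hTN hCT hnd with h | h
  · exact h X B D β hB hDB hab hβ hβB (actSub_refl _ _)
  obtain ⟨a, hex, he, hbd, hfac⟩ := h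
  -- the groups `[D, F]` are solved
  have hstar : P179H443.StarA p red a D (inertialGroup D β) := by
    intro F hFT hCF M hMD hM1 hMp hFM hFD
    have hFN : F ≤ normalizer (D : Set X) := hFT.trans hTN
    have hle : (⁅F, D⁆ : Subgroup X) ≤ D := comm_le hFN
    have hexp := comm_pow hab hFN hMp hFM
    refine ih (Nat.card (⁅F, D⁆ : Subgroup X)) ?_ X _ _ rfl
      (hfac F hFT hCF M hMD hM1 hMp hFM hFD)
    rw [← hcard]
    refine lt_of_le_of_ne (Subgroup.card_le_of_le hle) fun h => ?_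
    have h1 : (⁅F, D⁆ : Subgroup X) = D := Subgroup.eq_of_le_of_card_ge hle h.ge
    obtain ⟨d, hd, hd1⟩ := hex
    exact hd1 (hexp d (by rw [h1]; exact hd))
  have hdvd := P179H443.dvd_of_starA red hE hB' hDB' hab hβ hβB' hex hstar
  have hmod : P179B.numSimpleIn B ≡ P179B.numWeightsIn p red B [MOD p ^ (a + 1)] := by
    rw [← Int.natCast_modEq_iff]
    refine Int.ModEq.symm ((Int.modEq_iff_dvd).2 ?_)
    exact_mod_cast hdvd
  have hl0 : 0 < P179B.numSimpleIn B := by
    rw [P179B.numSimpleIn_eq]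
    exact P179C.numSimpleIn_pos B hB
  have hl : P179B.numSimpleIn B ≤ p ^ (a + 1) := hbd B β hB' hDB' hβ hβB' rfl
  have h3 := eq_of_modEq_le hmod hl0 hl (numWeights_pos red hB' hDB' hab) (hwe.trans he)
  rwa [P179B.numSimpleIn_eq, P179B.numWeightsIn_eq] at h3

/-- **the equality for all blocks with abelian defect group `D` such that `[D, T]` with the action
of `T` is in the class** -/
theorem eq_of_classN (hE : P179H443.EqwStmt p k)
    {Cl : ∀ (X : Type) [Group X], Subgroup X → Subgroup X → Prop}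
    (hCl : SolvClassN p red Cl)
    {G : Type} [Group G] [Finite G] {B : MonoidAlgebra k G} (hB : P179B.IsBlock B)
    {D : Subgroup G} (hD : P179B.IsDefectGroup B D) (hab : ∀ a ∈ D, ∀ b ∈ D, a * b = b * a)
    {β : MonoidAlgebra k (centralizer (D : Set G))} (hβ : P179B.IsBlock β)
    (hβB : P179B.InducesTo β B)
    (h : Cl G (⁅inertialGroup D β, D⁆ : Subgroup G) (inertialGroup D β)) :
    P179B.numSimpleIn B = P179B.numWeightsIn p red B := by
  have h1 := eqForAct_of_classN red hE hCl _ G (⁅inertialGroup D β, D⁆ : Subgroup G) _ rfl h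
  rw [P179B.numSimpleIn_eq, P179B.numWeightsIn_eq]
  exact P179H364.rel_of_hyp red (P := fun l w => l = w) rfl
    (fun _ _ _ _ h2 h3 => by rw [h2, h3]) _ G rfl B D β hB hD hab hβ
    ((P179B.inducesTo_iff β B).1 hβB) h1

/-- **the equality for a block of a group with a normal `p`-subgroup `M`**, in terms of
`[D, C_T(M)]` -/
theorem eq_of_classN_normal (hE : P179H443.EqwStmt p k)
    {Cl : ∀ (X : Type) [Group X], Subgroup X → Subgroup X → Prop}
    (hCl : SolvClassN p red Cl)
    {G : Type} [Group G] [Finite G] (M : Subgroup G) [M.Normal] (hM : IsPGroup p M)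
    {B : MonoidAlgebra k G} (hB : P179B.IsBlock B)
    {D : Subgroup G} (hD : P179B.IsDefectGroup B D) (hab : ∀ a ∈ D, ∀ b ∈ D, a * b = b * a)
    {β : MonoidAlgebra k (centralizer (D : Set G))} (hβ : P179B.IsBlock β)
    (hβB : P179B.InducesTo β B)
    (h : Cl G (⁅inertialGroup D β ⊓ centralizer (M : Set G), D⁆ : Subgroup G)
      (inertialGroup D β ⊓ normalizer
        ((⁅inertialGroup D β ⊓ centralizer (M : Set G), D⁆ : Subgroup G) : Set G))) :
    P179B.numSimpleIn B = P179B.numWeightsIn p red B := by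
  rw [P179B.numSimpleIn_eq, P179B.numWeightsIn_eq]
  exact P179H443.eq_of_eqw_act red hE M hM hB hD hab hβ
    ((P179B.inducesTo_iff β B).1 hβB) (eqForAct_of_classN red hE hCl _ G _ _ rfl h)

/-- **the congruence modulo `p ^ (a + 1)`**, in terms of the groups `[D, F]` -/
theorem modEq_of_classN (hE : P179H443.EqwStmt p k)
    {Cl : ∀ (X : Type) [Group X], Subgroup X → Subgroup X → Prop}
    (hCl : SolvClassN p red Cl) {a : ℕ}
    {G : Type} [Group G] [Finite G] {B : MonoidAlgebra k G} (hB : P179B.IsBlock B)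
    {D : Subgroup G} (hD : P179B.IsDefectGroup B D) (hab : ∀ a ∈ D, ∀ b ∈ D, a * b = b * a)
    {β : MonoidAlgebra k (centralizer (D : Set G))} (hβ : P179B.IsBlock β)
    (hβB : P179B.InducesTo β B) (hex : ∃ d ∈ D, d ^ p ^ a ≠ 1)
    (h : ∀ F ≤ inertialGroup D β, centralizer (D : Set G) ≤ F → ∀ M ≤ D, M ≠ ⊥ →
      (∀ d ∈ D, d ^ p ^ a ∈ M) → F ≤ centralizer (M : Set G) →
      ¬ F ≤ centralizer (D : Set G) → Cl G (⁅F, D⁆ : Subgroup G)
        (inertialGroup D β ⊓ normalizer ((⁅F, D⁆ : Subgroup G) : Set G))) :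
    P179B.numSimpleIn B ≡ P179B.numWeightsIn p red B [MOD p ^ (a + 1)] := by
  have hdvd := P179H443.dvd_of_starA red hE hB hD hab hβ hβB hex
    fun F hFT hCF M hMD hM1 hMp hFM hFD => eqForAct_of_classN red hE hCl _ G _ _ rfl
      (h F hFT hCF M hMD hM1 hMp hFM hFD)
  rw [← Int.natCast_modEq_iff]
  refine Int.ModEq.symm ((Int.modEq_iff_dvd).2 ?_)
  exact_mod_cast hdvd

omit hp [IsAlgClosed k] [CharP k p] in
/-- the bound, from a regular coset -/
theorem boundHere_of_reg (h7 : M7Stmt p k) {G : Type} [Group G] [Finite G] {D T : Subgroup G}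
    (hab : ∀ x ∈ D, ∀ y ∈ D, x * y = y * x) {a j o : ℕ} {w : G} (hj : 1 ≤ j) (hw : w ∈ D)
    (ho0 : 0 < o) (ho : ∀ i : ℕ, (∃ d ∈ D, w ^ i = d ^ p ^ j) → o ∣ i)
    (hreg : ∀ n ∈ T, (∃ d ∈ D, n * w * n⁻¹ * w⁻¹ = d ^ p ^ j) → n ∈ centralizer (D : Set G))
    (hii : (centralizer (D : Set G)).relIndex T * Nat.card D < p ^ (2 * j) *
      Nat.card {u : G // u ∈ D ∧ ∀ n ∈ T, n * u * n⁻¹ = u → n ∈ centralizer (D : Set G)})
    (hcd : Nat.card D * p ≤ p ^ (a + 1) * (Nat.card {y : G // ∃ d ∈ D, d ^ p ^ j = y} * o)) :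
    BoundHere k D T (p ^ (a + 1)) := by
  intro B β hB hD hβ hβB hT
  subst hT
  have h1 := h7 G B D β j o w hB hD hab hβ hβB hj hw ho hreg hii
  have hY : 0 < Nat.card {y : G // ∃ d ∈ D, d ^ p ^ j = y} := by
    rw [Nat.card_pos_iff]
    exact ⟨⟨⟨1, 1, one_mem D, one_pow _⟩⟩, inferInstance⟩
  have h2 : P179B.numSimpleIn B * (Nat.card {y : G // ∃ d ∈ D, d ^ p ^ j = y} * o) ≤
      p ^ (a + 1) * (Nat.card {y : G // ∃ d ∈ D, d ^ p ^ j = y} * o) := by
    rw [← mul_assoc]
    exact h1.trans hcd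
  exact Nat.le_of_mul_le_mul_right h2 (Nat.mul_pos hY ho0)

omit hp [IsAlgClosed k] [CharP k p] in
/-- the bound, from the height-refined bound -/
theorem boundHere_of_regH (h7 : P179H12.M7hStmt p k) {G : Type} [Group G] [Finite G]
    {D T : Subgroup G} (hab : ∀ x ∈ D, ∀ y ∈ D, x * y = y * x) {N j₀ J : ℕ} {o : ℕ → ℕ} {w : G}
    (hj : j₀ ≤ J) (hw : w ∈ D)
    (ho : ∀ j, j₀ ≤ j → ∀ i : ℕ, (∃ d ∈ D, w ^ i = d ^ p ^ j) → o j ∣ i)
    (hreg : ∀ n ∈ T, (∃ d ∈ D, n * w * n⁻¹ * w⁻¹ = d ^ p ^ j₀) → n ∈ centralizer (D : Set G))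
    (hii : (centralizer (D : Set G)).relIndex T * Nat.card D < p ^ (2 * J) *
      Nat.card {u : G // u ∈ D ∧ ∀ n ∈ T, n * u * n⁻¹ = u → n ∈ centralizer (D : Set G)})
    (hcd : Nat.card D * p / (Nat.card {y : G // ∃ d ∈ D, d ^ p ^ j₀ = y} * o j₀) +
      ∑ h ∈ Finset.Ico j₀ J, Nat.card D * p /
        (p ^ (2 * h) * (Nat.card {y : G // ∃ d ∈ D, d ^ p ^ (h + 1) = y} * o (h + 1))) ≤ N) :
    BoundHere k D T N := by
  intro B β hB hD hβ hβB hT
  subst hT
  exact (h7 G B D β j₀ J o w hB hD hab hβ hβB hj hw ho hreg hii).trans hcd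

end

end P179H351
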