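import Vale.Agent.P179.H526.K7T
import Vale.Agent.P179.R2.H292.Ext

/-!
# Blocks of a normal subgroup of index prime to `p` which are seen by an element of a coset
-/

namespace P179H351

open Subgroup Finset P179H524 P179C P179A P179P P179Y P179H292

open scoped Classical

universe u

section Hom

variable {k : Type u} [Field k] {G : Type} [Group G] [Fintype G]

/-- a proper ideal of the centre is killed by a homomorphism -/
theorem exists_hom_of_ideal [IsAlgClosed k] (A : Ideal (Subalgebra.center k (MonoidAlgebra k G)))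
    (hA : A ≠ ⊤) :
    ∃ ν : Subalgebra.center k (MonoidAlgebra k G) →ₐ[k] k, ∀ z ∈ A, ν z = 0 := by
  obtain ⟨M, hM, hAM⟩ := Ideal.exists_le_maximal A hA
  let _ : Field (Subalgebra.center k (MonoidAlgebra k G) ⧸ M) := Ideal.Quotient.field M
  have hfin : Module.Finite k (Subalgebra.center k (MonoidAlgebra k G) ⧸ M) := inferInstance
  have hint : Algebra.IsIntegral k (Subalgebra.center k (MonoidAlgebra k G) ⧸ M) := inferInstance
  have hb := IsAlgClosed.algebraMap_bijective_of_isIntegral (k := k)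
    (K := Subalgebra.center k (MonoidAlgebra k G) ⧸ M)
  let E : k ≃ₐ[k] (Subalgebra.center k (MonoidAlgebra k G) ⧸ M) :=
    AlgEquiv.ofBijective (Algebra.ofId k _) hb
  refine ⟨E.symm.toAlgHom.comp (Ideal.Quotient.mkₐ k M), fun z hz => ?_⟩
  have h0 : (Ideal.Quotient.mk M z) = 0 := Ideal.Quotient.eq_zero_iff_mem.2 (hAM hz)
  exact (congrArg E.symm h0).trans (map_zero E.symm)

/-- the functional on functions of a homomorphism of the centre -/
theorem exists_isHomCF (ν : Subalgebra.center k (MonoidAlgebra k G) →ₐ[k] k) :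
    ∃ μ : (G → k) → k, IsHomCF μ ∧
      ∀ (a : G → k) (ha : IsCF a), μ a = ν ⟨mkF a, mkF_mem ha⟩ := by
  obtain ⟨g, hg⟩ := LinearMap.exists_extend
    (p := Subalgebra.toSubmodule (Subalgebra.center k (MonoidAlgebra k G))) ν.toLinearMap
  have hg' : ∀ (z : MonoidAlgebra k G) (hz : z ∈ Subalgebra.center k (MonoidAlgebra k G)),
      g z = ν ⟨z, hz⟩ := by
    intro z hz
    exact LinearMap.congr_fun hg (⟨z, hz⟩ : Subalgebra.toSubmodule
      (Subalgebra.center k (MonoidAlgebra k G)))
  refine ⟨fun a => g (mkF a), ⟨fun a b => ?_, fun r a => ?_, ?_, fun a b ha hb => ?_⟩,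
    fun a ha => hg' _ _⟩
  · rw [mkF_add, map_add]
  · rw [mkF_smul, map_smul, smul_eq_mul]
  · rw [mkF_one, hg' 1 (one_mem _)]
    exact map_one ν
  · rw [mkF_conv, hg' _ (mul_mem (mkF_mem ha) (mkF_mem hb)), hg' _ (mkF_mem ha),
      hg' _ (mkF_mem hb), ← map_mul]
    rfl

/-- two homomorphisms of the same block agree on class functions -/
theorem homCF_eq {μ μ' : (G → k) → k} (h : IsHomCF μ) (h' : IsHomCF μ') {b : G → k} (hb : IsCF b)
    (hprim : Prim (⟨mkF b, mkF_mem hb⟩ : Subalgebra.center k (MonoidAlgebra k G)))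
    (h1 : μ b = 1) (h1' : μ' b = 1) {a : G → k} (ha : IsCF a) : μ a = μ' a := by
  have h2 := eq_of_prim hprim h.toAlgHom h'.toAlgHom (by rw [h.toAlgHom_mkF hb, h1])
    (by rw [h'.toAlgHom_mkF hb, h1'])
  rw [← h.toAlgHom_mkF ha, ← h'.toAlgHom_mkF ha, h2]

end Hom

section Coset

variable {k : Type u} [Field k] {G : Type} [Group G] [Fintype G] {K : Subgroup G} {g : G}
  {f b : G → k}

theorem conv_comm_inv (hf : ∀ c ∈ K, ∀ x, f (c * x * c⁻¹) = f x) (hb : ∀ x, x ∉ K → b x = 0) :
    conv b f = conv f b := by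
  funext x
  unfold conv
  refine Fintype.sum_equiv ((Equiv.inv G).trans (Equiv.mulLeft x)) _ _ fun y => ?_
  change b y * f (y⁻¹ * x) = f (x * y⁻¹) * b ((x * y⁻¹)⁻¹ * x)
  have e1 : (x * y⁻¹)⁻¹ * x = y := by group
  rw [e1]
  by_cases hy : y ∈ K
  · have h1 := hf y hy (y⁻¹ * x)
    have e2 : y * (y⁻¹ * x) * y⁻¹ = x * y⁻¹ := by group
    rw [e2] at h1
    rw [h1, mul_comm]
  · rw [hb y hy, zero_mul, mul_zero]

/-- an element of `k[Kg]` which commutes with `K` moves the centre of `kK` by `g` -/
theorem conv_cj_comm (hf : ∀ c ∈ K, ∀ x, f (c * x * c⁻¹) = f x)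
    (hfs : ∀ x, f x ≠ 0 → x * g⁻¹ ∈ K) (hgK : ∀ c ∈ K, g⁻¹ * c * g ∈ K) (hb : InvOn K b) :
    conv b f = conv (cj g b) f := by
  rw [conv_comm_inv hf hb.2]
  funext x
  unfold conv
  refine Fintype.sum_equiv ((Equiv.inv G).trans (Equiv.mulLeft x)) _ _ fun y => ?_
  change f y * b (y⁻¹ * x) = cj g b (x * y⁻¹) * f ((x * y⁻¹)⁻¹ * x)
  have e1 : (x * y⁻¹)⁻¹ * x = y := by group
  rw [e1]
  by_cases hy : f y = 0
  · rw [hy, zero_mul, mul_zero]
  · have hc := hfs y hy
    have h1 := hb.1 _ (hgK _ hc) (y⁻¹ * x)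
    have e2 : g⁻¹ * (y * g⁻¹) * g * (y⁻¹ * x) * (g⁻¹ * (y * g⁻¹) * g)⁻¹ =
        g⁻¹ * (x * y⁻¹) * g := by group
    rw [e2] at h1
    unfold cj
    rw [h1, mul_comm]

end Coset

section ToG

variable {k : Type u} [Field k] {G : Type} [Group G] [Fintype G] {K : Subgroup G} [Fintype K]

/-- an element of `kK` as an element of `kG` -/
noncomputable def toG (z : MonoidAlgebra k K) : MonoidAlgebra k G :=
  mkF (ext K (fun h => z.coeff h))

omit [Fintype K] in
theorem toG_add (z w : MonoidAlgebra k K) : toG (z + w) = toG z + toG w := by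
  unfold toG
  rw [← mkF_add, ← P179Y.ext_add]
  congr 2

theorem toG_mul (z w : MonoidAlgebra k K) : toG (z * w) = toG z * toG w := by
  unfold toG
  rw [← mkF_conv, ← ext_conv]
  congr 2
  funext h
  rw [coeff_mul_eq_conv]

omit [Fintype K] in
theorem toG_zero : toG (0 : MonoidAlgebra k K) = 0 := by
  have h := toG_add (0 : MonoidAlgebra k K) 0
  rw [add_zero] at h
  exact left_eq_add.1 h

theorem toG_one : toG (1 : MonoidAlgebra k K) = 1 := by
  unfold toG
  rw [ext_one K _ ?_ ?_, mkF_one]
  · rw [← mkF_one, coeff_mkF, if_pos rfl]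
  · intro g hg
    rw [← mkF_one, coeff_mkF, if_neg hg]

theorem toG_mkF {a : G → k} (ha : ∀ x, x ∉ K → a x = 0) :
    toG (mkF (fun h : K => a h)) = mkF a := by
  unfold toG
  congr 1
  rw [← ext_restr' ha]
  congr 1
  funext h
  rw [coeff_mkF, P179Y.ext_coe]

end ToG

section Stable

variable {k : Type u} [Field k] [IsAlgClosed k] {G : Type} [Group G] [Fintype G] {K : Subgroup G}
  [Fintype K] {g : G} {f e : G → k}

/-- the ideal of the centre of `kK` of the elements which kill `f` -/
noncomputable def annI (K : Subgroup G) [Fintype K] (f : G → k) :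
    Ideal (Subalgebra.center k (MonoidAlgebra k K)) where
  carrier := {z | toG z.1 * mkF f = 0}
  add_mem' := by
    intro a b ha hb
    change toG (a.1 + b.1) * mkF f = 0
    rw [toG_add, add_mul, ha, hb, add_zero]
  zero_mem' := by
    change toG (0 : MonoidAlgebra k K) * mkF f = 0
    rw [toG_zero, zero_mul]
  smul_mem' := by
    intro c a ha
    change toG (c.1 * a.1) * mkF f = 0
    rw [toG_mul, mul_assoc, show toG a.1 * mkF f = 0 from ha, mul_zero]

omit [IsAlgClosed k] in
theorem mem_annI {z : Subalgebra.center k (MonoidAlgebra k K)} :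
    z ∈ annI K f ↔ toG z.1 * mkF f = 0 := Iff.rfl

omit [IsAlgClosed k] [Fintype G] [Fintype K] in
theorem invOn_ext {a : K → k} (ha : IsCF a) : InvOn K (ext K a) := by
  constructor
  · intro h hh x
    by_cases hx : x ∈ K
    · rw [ext_of_mem K a hx, ext_of_mem K a (mul_mem (mul_mem hh hx) (inv_mem hh))]
      exact ha ⟨h, hh⟩ ⟨x, hx⟩
    · rw [ext_of_not_mem K a hx, ext_of_not_mem K a]
      intro h1
      apply hx
      have h2 := mul_mem (mul_mem (inv_mem hh) h1) hh
      have e1 : h⁻¹ * (h * x * h⁻¹) * h = x := by group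
      rwa [e1] at h2
  · intro x hx
    exact ext_of_not_mem K a hx

omit [IsAlgClosed k] [Fintype G] [Fintype K] in
theorem invOn_cj {n : G} (hn : ∀ c ∈ K, n * c * n⁻¹ ∈ K) (hn' : ∀ c ∈ K, n⁻¹ * c * n ∈ K)
    {a : G → k} (ha : InvOn K a) : InvOn K (cj n a) := by
  constructor
  · intro h hh x
    unfold cj
    have h1 := ha.1 _ (hn' h hh) (n⁻¹ * x * n)
    have e : n⁻¹ * h * n * (n⁻¹ * x * n) * (n⁻¹ * h * n)⁻¹ = n⁻¹ * (h * x * h⁻¹) * n := by group
    rw [e] at h1
    exact h1
  · intro x hx
    unfold cj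
    refine ha.2 _ fun h => hx ?_
    have h1 := hn _ h
    have e : n * (n⁻¹ * x * n) * n⁻¹ = x := by group
    rwa [e] at h1

omit [IsAlgClosed k] [Fintype G] [Fintype K] in
theorem isCF_res {a : G → k} (ha : InvOn K a) : IsCF (fun h : K => a h) :=
  fun c x => ha.1 c c.2 x

/-- **a stable block**: if `f ≠ 0` is an element of `k[Kg]` which commutes with `K`, and `e f = f`,
some homomorphism of the centre of `kK` with value `1` at `e` is fixed by `g`. -/
theorem exists_stable_hom (hf0 : f ≠ 0) (hf : ∀ c ∈ K, ∀ x, f (c * x * c⁻¹) = f x)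
    (hfs : ∀ x, f x ≠ 0 → x * g⁻¹ ∈ K) (hgK : ∀ c ∈ K, g * c * g⁻¹ ∈ K)
    (hgK' : ∀ c ∈ K, g⁻¹ * c * g ∈ K) (he : InvOn K e) (hef : conv e f = f) :
    ∃ μ : (K → k) → k, IsHomCF μ ∧ μ (fun h : K => e h) = 1 ∧
      ∀ w, InvOn K w → μ (fun h : K => cj g⁻¹ w h) = μ (fun h : K => w h) := by
  have hF0 : mkF f ≠ 0 := by
    intro h
    apply hf0
    funext x
    rw [← coeff_mkF f x, h]
    rfl
  have hA : annI K f ≠ ⊤ := by
    intro h
    have h1 : (1 : Subalgebra.center k (MonoidAlgebra k K)) ∈ annI K f := by rw [h]; trivial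
    rw [mem_annI] at h1
    change toG (1 : MonoidAlgebra k K) * mkF f = 0 at h1
    rw [toG_one, one_mul] at h1
    exact hF0 h1
  obtain ⟨ν, hν⟩ := exists_hom_of_ideal _ hA
  obtain ⟨B, hB, hνB⟩ := exists_prim ν
  obtain ⟨μ, hμ, hμν⟩ := exists_isHomCF ν
  -- the value at `e`
  let eK : Subalgebra.center k (MonoidAlgebra k K) := ⟨mkF (fun h : K => e h), mkF_mem (isCF_res he)⟩
  have hνe : ν eK = 1 := by
    have h1 : (1 - eK) ∈ annI K f := by
      rw [mem_annI]
      have h2 : toG (1 - eK).1 + toG eK.1 = 1 := by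
        rw [← toG_add]
        change toG ((1 : MonoidAlgebra k K) - eK.1 + eK.1) = 1
        rw [sub_add_cancel, toG_one]
      have h3 : toG eK.1 * mkF f = mkF f := by
        change toG (mkF (fun h : K => e h)) * mkF f = mkF f
        rw [toG_mkF he.2, ← mkF_conv, hef]
      have h4 : toG (1 - eK).1 * mkF f + toG eK.1 * mkF f = mkF f := by
        rw [← add_mul, h2, one_mul]
      rw [h3] at h4
      exact add_eq_right.1 h4
    have h2 := hν _ h1
    rw [map_sub, map_one, sub_eq_zero] at h2
    exact h2.symm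
  -- the block `B`
  have hBA : toG B.1 * mkF f ≠ 0 := by
    intro h
    have h1 := hν B (mem_annI.2 h)
    rw [hνB] at h1
    exact one_ne_zero h1
  let b : K → k := fun h => B.1.coeff h
  have hb : IsCF b := (P179C.mem_center_iff _).1 B.2
  have hBb : (⟨mkF b, mkF_mem hb⟩ : Subalgebra.center k (MonoidAlgebra k K)) = B :=
    Subtype.ext (mkF_coeff _)
  have hμb : μ b = 1 := by rw [hμν b hb, hBb, hνB]
  let bb : G → k := ext K b
  have hbb : InvOn K bb := invOn_ext hb
  have hbbB : mkF bb = toG B.1 := rfl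
  let bg : K → k := fun h : K => cj g bb h
  have hcjb : InvOn K (cj g bb) := invOn_cj hgK hgK' hbb
  have hbg : IsCF bg := isCF_res hcjb
  let Bg : Subalgebra.center k (MonoidAlgebra k K) := ⟨mkF bg, mkF_mem hbg⟩
  have htBg : toG Bg.1 = mkF (cj g bb) := toG_mkF hcjb.2
  have hcomm : toG B.1 * mkF f = toG Bg.1 * mkF f := by
    rw [← hbbB, htBg, ← mkF_conv, ← mkF_conv, conv_cj_comm hf hfs hgK' hbb]
  have hBgBg : Bg * Bg = Bg := by
    have hbbb : conv bb bb = bb := by
      change conv (ext K b) (ext K b) = ext K b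
      rw [← ext_conv]
      congr 1
      funext h
      have h1 := congrArg (fun y : Subalgebra.center k (MonoidAlgebra k K) => y.1.coeff h) hB.1
      change (B.1 * B.1).coeff h = B.1.coeff h at h1
      rw [coeff_mul_eq_conv] at h1
      exact h1
    apply Subtype.ext
    change mkF bg * mkF bg = mkF bg
    rw [← mkF_conv, ← conv_res K hcjb.2, ← cj_conv, hbbb]
  have hE : B * Bg = B := by
    have h1 : B * Bg * (B * Bg) = B * Bg := by
      have : B * Bg * (B * Bg) = (B * B) * (Bg * Bg) := by ring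
      rw [this, hB.1, hBgBg]
    have h2 : B * Bg * B = B * Bg := by
      have : B * Bg * B = (B * B) * Bg := by ring
      rw [this, hB.1]
    rcases hB.2.2 _ h1 h2 with h3 | h3
    · exfalso
      apply hBA
      have h4 : toG B.1 * toG Bg.1 = 0 := by
        rw [← toG_mul]
        change toG (B * Bg).1 = 0
        rw [h3]
        exact toG_zero
      have h5 : toG B.1 * toG B.1 = toG B.1 := by
        rw [← toG_mul]
        exact congrArg (fun y : Subalgebra.center k (MonoidAlgebra k K) => toG y.1) hB.1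
      rw [← h5, mul_assoc, hcomm, ← mul_assoc, h4, zero_mul]
    · exact h3
  have hνBg : ν Bg = 1 := by
    have h1 := congrArg ν hE
    rwa [map_mul, hνB, one_mul] at h1
  -- the conjugate functional
  let μ' : (K → k) → k := fun a => μ (fun h : K => cj g (ext K a) h)
  have hμ' : IsHomCF μ' :=
    { add := fun a c => by
        change μ _ = μ _ + μ _
        rw [← hμ.add]
        congr 1
        funext h
        rw [P179Y.ext_add, cj_add]
        rfl
      smul := fun r a => by
        change μ _ = r * μ _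
        rw [← hμ.smul]
        congr 1
        funext h
        rw [ext_smul, cj_smul]
        rfl
      one := by
        change μ _ = 1
        refine Eq.trans ?_ hμ.one
        congr 1
        funext h
        unfold cj
        rw [P179Y.ext_of_mem K _ (hgK' _ h.2)]
        by_cases hh : h = 1
        · rw [if_pos hh, if_pos]
          apply Subtype.ext
          change g⁻¹ * (h : G) * g = 1
          rw [hh]
          simp
        · rw [if_neg hh, if_neg]
          intro h1
          apply hh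
          have h2 : g⁻¹ * (h : G) * g = 1 := congrArg Subtype.val h1
          apply Subtype.ext
          change (h : G) = 1
          have e1 : (h : G) = g * (g⁻¹ * (h : G) * g) * g⁻¹ := by group
          rw [e1, h2]
          group
      mul := fun a c ha hc => by
        change μ _ = μ _ * μ _
        have h1 := invOn_cj hgK hgK' (invOn_ext ha)
        have h2 := invOn_cj hgK hgK' (invOn_ext hc)
        rw [← hμ.mul _ _ (isCF_res h1) (isCF_res h2), ← conv_res K h1.2, ← cj_conv, ← ext_conv] }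
  have hμ'b : μ' b = 1 := by
    change μ bg = 1
    rw [hμν bg hbg]
    exact hνBg
  refine ⟨μ, hμ, ?_, fun w hw => ?_⟩
  · rw [hμν _ (isCF_res he)]
    exact hνe
  · have hw' : InvOn K (cj g⁻¹ w) := invOn_cj (by
      intro c hc
      simpa using hgK' c hc) (by
      intro c hc
      simpa using hgK c hc) hw
    have h1 := homCF_eq hμ' hμ hb (by rw [hBb]; exact hB) hμ'b hμb (isCF_res hw')
    rw [← h1]
    change μ _ = μ _
    congr 1
    funext h
    rw [ext_restr' hw'.2, ← cj_mul, mul_inv_cancel, cj_one]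

end Stable

end P179H351
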