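import Vale.Agent.P179.R2.H351.Ind9
import Vale.Agent.P179.R2.H12.RegH
import Vale.Agent.P179.R2.H351.Ind8

/-!
# The final induction for classes with an action: regular cosets
-/

namespace P179H351

open Subgroup P179H524 P179R P179Y MonoidAlgebra P179H292

open P179B (inertialIndex inertialGroup regularElements hyperfocal)

open scoped Classical

universe u

/-- a class of finite abelian `p`-groups `D` with a group `T` acting on `D`, closed under subgroups
of the acting group and under the passage to `[D, F]`, whose members are solved or have regular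
cosets -/
structure SolvClassH (p : ℕ) {k : Type u} [Field k] (red : integralClosure ℤ ℂ →+* k)
    (Cl : ∀ (X : Type) [Group X], Subgroup X → Subgroup X → Prop) : Prop where
  /-- closed under isomorphisms and restriction of the action -/
  act : ∀ (X Y : Type) [Group X] [Group Y] (K T : Subgroup X) (D' T' : Subgroup Y),
    ActSub K T D' T' → Cl X K T → Cl Y D' T'
  /-- closed under the passage to `[D, F]` -/
  fac : ∀ (X : Type) [Group X] [Finite X] (D T F : Subgroup X), Cl X D T →
    (∀ x ∈ D, ∀ y ∈ D, x * y = y * x) → IsPGroup p D → T ≤ normalizer (D : Set X) →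
    centralizer (D : Set X) ≤ T → ¬ p ∣ (centralizer (D : Set X)).relIndex T →
    F ≤ T → centralizer (D : Set X) ≤ F →
    Cl X (⁅F, D⁆ : Subgroup X) (T ⊓ normalizer ((⁅F, D⁆ : Subgroup X) : Set X))
  /-- the members are solved or have regular cosets -/
  reg : ∀ (X : Type) [Group X] [Finite X] (D T : Subgroup X), Cl X D T →
    (∀ x ∈ D, ∀ y ∈ D, x * y = y * x) → IsPGroup p D → T ≤ normalizer (D : Set X) →
    centralizer (D : Set X) ≤ T → ¬ p ∣ (centralizer (D : Set X)).relIndex T →
    EqForAct p red D T ∨ HasRegCoset p D T ∨ P179H12.HasRegCosetH p D T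

section

variable {p : ℕ} [hp : Fact p.Prime] {k : Type u} [Field k] [IsAlgClosed k] [CharP k p]
  (red : integralClosure ℤ ℂ →+* k)

theorem SolvClassH.solvClassN (hp2 : p ≠ 2)
    {Cl : ∀ (X : Type) [Group X], Subgroup X → Subgroup X → Prop}
    (hCl : SolvClassH p red Cl) : SolvClassN p red Cl := by
  refine ⟨hCl.act, fun X _ _ D T hDcl hab hD hTN hCT hnd => ?_⟩
  have hfac : ∀ F ≤ T, centralizer (D : Set X) ≤ F →
      Cl X (⁅F, D⁆ : Subgroup X) (T ⊓ normalizer ((⁅F, D⁆ : Subgroup X) : Set X)) :=
    fun F hFT hCF => hCl.fac X D T F hDcl hab hD hTN hCT hnd hFT hCF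
  rcases hCl.reg X D T hDcl hab hD hTN hCT hnd with h | h | h
  · exact Or.inl h
  · obtain ⟨a, j, o, w, hex, hj, hw, ho0, ho, hreg, hii, hcd, he⟩ := h
    exact Or.inr ⟨a, hex, he, boundHere_of_reg (P179H452.m7Stmt red hp2) hab hj hw ho0 ho hreg
      hii hcd, fun F hFT hCF _ _ _ _ _ _ => hfac F hFT hCF⟩
  · obtain ⟨a, j₀, J, o, w, hex, hj, hw, ho, hreg, hii, hcd, he⟩ := h
    exact Or.inr ⟨a, hex, he, boundHere_of_regH (P179H12.m7hStmt red hp2) hab hj hw ho hreg
      hii hcd, fun F hFT hCF _ _ _ _ _ _ => hfac F hFT hCF⟩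

end

end P179H351
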