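import Vale.Agent.P179.R2.H351.Ind10
import Vale.Agent.P179.R2.H872.EqwF
import Vale.Agent.P179.R2.H967.SmB4

/-!
# The final induction for classes with an action: the outputs
-/

namespace P179H351

open Subgroup P179H524 P179R P179Y MonoidAlgebra P179H292

open P179B (inertialIndex inertialGroup regularElements hyperfocal)

open scoped Classical

universe u

/-- the theorem on the blocks of groups with a normal `p`-subgroup -/
theorem eqwStmt (p : ℕ) [Fact p.Prime] (k : Type u) [Field k] [IsAlgClosed k] [CharP k p] :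
    P179H443.EqwStmt p k :=
  P179H872.eqwStmt_of_sum p k (P179H967.sumS p k)

theorem comm_normal {G : Type*} [Group G] {F D T : Subgroup G} (hTD : T ≤ normalizer (D : Set G))
    (hTF : ∀ t ∈ T, ∀ f ∈ F, t * f * t⁻¹ ∈ F) :
    T ≤ normalizer ((⁅F, D⁆ : Subgroup G) : Set G) := by
  have key : ∀ t ∈ T, ∀ x ∈ (⁅F, D⁆ : Subgroup G), t * x * t⁻¹ ∈ (⁅F, D⁆ : Subgroup G) := by
    intro t ht x hx
    have h1 : (⁅F, D⁆ : Subgroup G) ≤ (⁅F, D⁆ : Subgroup G).comap (MulAut.conj t).toMonoidHom := by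
      rw [commutator_le]
      intro f hf d hd
      rw [mem_comap]
      change t * (f * d * f⁻¹ * d⁻¹) * t⁻¹ ∈ _
      have e : t * (f * d * f⁻¹ * d⁻¹) * t⁻¹ =
          t * f * t⁻¹ * (t * d * t⁻¹) * (t * f * t⁻¹)⁻¹ * (t * d * t⁻¹)⁻¹ := by group
      rw [e]
      exact commutator_mem_commutator (hTF t ht f hf) ((mem_normalizer_iff.1 (hTD ht) d).1 hd)
    exact h1 hx
  intro t ht
  rw [mem_normalizer_iff]
  refine fun x => ⟨key t ht x, fun hx => ?_⟩
  have h1 := key t⁻¹ (inv_mem ht) _ hx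
  have e : t⁻¹ * (t * x * t⁻¹) * t⁻¹⁻¹ = x := by group
  rwa [e] at h1

section

variable {p : ℕ} [hp : Fact p.Prime] {k : Type u} [Field k] [IsAlgClosed k] [CharP k p]
  (red : integralClosure ℤ ℂ →+* k)
  {Cl : ∀ (X : Type) [Group X], Subgroup X → Subgroup X → Prop}

/-- **the equality for all blocks with defect group and action in the class** -/
theorem eqForAct_class (hCl : SolvClassN p red Cl) {G : Type} [Group G] [Finite G]
    {K T : Subgroup G} (h : Cl G K T) : EqForAct p red K T :=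
  eqForAct_of_classN red (eqwStmt p k) hCl _ G K T rfl h

variable {G : Type} [Group G] [Finite G] {B : MonoidAlgebra k G} {D : Subgroup G}
  {β : MonoidAlgebra k (centralizer (D : Set G))}

/-- **the equality**, in terms of `D` -/
theorem eq_class_self (hCl : SolvClassN p red Cl) (hB : P179B.IsBlock B)
    (hD : P179B.IsDefectGroup B D) (hab : ∀ a ∈ D, ∀ b ∈ D, a * b = b * a)
    (hβ : P179B.IsBlock β) (hβB : P179B.InducesTo β B) (h : Cl G D (inertialGroup D β)) :
    P179B.numSimpleIn B = P179B.numWeightsIn p red B := by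
  rw [P179B.numSimpleIn_eq, P179B.numWeightsIn_eq]
  exact eqForAct_class red hCl h G B D β hB hD hab hβ ((P179B.inducesTo_iff β B).1 hβB)
    (actSub_refl _ _)

/-- **the equality**, in terms of `[D, T]` -/
theorem eq_class_hyp (hCl : SolvClassN p red Cl) (hB : P179B.IsBlock B)
    (hD : P179B.IsDefectGroup B D) (hab : ∀ a ∈ D, ∀ b ∈ D, a * b = b * a)
    (hβ : P179B.IsBlock β) (hβB : P179B.InducesTo β B)
    (h : Cl G (⁅inertialGroup D β, D⁆ : Subgroup G) (inertialGroup D β)) :
    P179B.numSimpleIn B = P179B.numWeightsIn p red B :=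
  eq_of_classN red (eqwStmt p k) hCl hB hD hab hβ hβB h

/-- **the equality**, in terms of `[D, C_T(M)]` for a normal `p`-subgroup `M` of `G` -/
theorem eq_class_normal (hCl : SolvClassN p red Cl) (M : Subgroup G) [hMn : M.Normal]
    (hM : IsPGroup p M) (hB : P179B.IsBlock B)
    (hD : P179B.IsDefectGroup B D) (hab : ∀ a ∈ D, ∀ b ∈ D, a * b = b * a)
    (hβ : P179B.IsBlock β) (hβB : P179B.InducesTo β B)
    (h : Cl G (⁅inertialGroup D β ⊓ centralizer (M : Set G), D⁆ : Subgroup G)
      (inertialGroup D β)) :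
    P179B.numSimpleIn B = P179B.numWeightsIn p red B := by
  refine eq_of_classN_normal red (eqwStmt p k) hCl M hM hB hD hab hβ hβB ?_
  have h1 : inertialGroup D β ⊓ normalizer
      ((⁅inertialGroup D β ⊓ centralizer (M : Set G), D⁆ : Subgroup G) : Set G) =
      inertialGroup D β := by
    refine inf_eq_left.2 (comm_normal (fun n hn => hn.1) fun t ht f hf => ?_)
    have h2 : (centralizer (M : Set G)).Normal := inferInstance
    exact mem_inf.2 ⟨(inertialGroup D β).mul_mem ((inertialGroup D β).mul_mem ht hf.1)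
      ((inertialGroup D β).inv_mem ht), h2.conj_mem f hf.2 t⟩
  rwa [h1]

/-- **the congruence modulo `p ^ (a + 1)`** -/
theorem modEq_class (hCl : SolvClassN p red Cl) {a : ℕ} (hB : P179B.IsBlock B)
    (hD : P179B.IsDefectGroup B D) (hab : ∀ a ∈ D, ∀ b ∈ D, a * b = b * a)
    (hβ : P179B.IsBlock β) (hβB : P179B.InducesTo β B)
    (h : ∀ F ≤ inertialGroup D β, (∀ n ∈ F, ∀ d ∈ D, n * d ^ p ^ a * n⁻¹ = d ^ p ^ a) →
      Cl G (⁅F, D⁆ : Subgroup G)
        (inertialGroup D β ⊓ normalizer ((⁅F, D⁆ : Subgroup G) : Set G))) :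
    P179B.numSimpleIn B ≡ P179B.numWeightsIn p red B [MOD p ^ (a + 1)] := by
  by_cases hex : ∃ d ∈ D, d ^ p ^ a ≠ 1
  · refine modEq_of_classN red (eqwStmt p k) hCl hB hD hab hβ hβB hex
      fun F hFT _ M _ _ hM hFM _ => h F hFT fun n hn d hd => ?_
    have h1 := mem_centralizer_iff.1 (hFM hn) _ (hM d hd)
    rw [← h1, mul_inv_cancel_right]
  · push Not at hex
    have h1 := h (inertialGroup D β) le_rfl fun n _ d hd => by
      rw [hex d hd, mul_one, mul_inv_cancel]
    have h2 : inertialGroup D β ⊓ normalizer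
        ((⁅inertialGroup D β, D⁆ : Subgroup G) : Set G) = inertialGroup D β :=
      inf_eq_left.2 (comm_normal (fun n hn => hn.1) fun t ht f hf =>
        mul_mem (mul_mem ht hf) (inv_mem ht))
    rw [h2] at h1
    rw [eq_class_hyp red hCl hB hD hab hβ hβB h1]

end

end P179H351
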