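import Vale.Agent.P179.R2.H351.Ind11

/-!
# Classes of groups with an action: passage to the finite members
-/

namespace P179H351

open Subgroup P179H524 P179R P179Y MonoidAlgebra P179H292

open scoped Classical

universe u

/-- the class of all `(D', T')` which come from a member `(K, S)` of `P` in a finite group -/
def ClT (P : ∀ (X : Type) [Group X], Subgroup X → Subgroup X → Prop) (Y : Type) [Group Y]
    (D' T' : Subgroup Y) : Prop :=
  ∃ (X : Type) (_ : Group X) (_ : Finite X) (K S : Subgroup X), S ≤ normalizer (K : Set X) ∧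
    P X K S ∧ ActSub K S D' T'

variable {p : ℕ} {k : Type u} [Field k] (red : integralClosure ℤ ℂ →+* k)
  {P : ∀ (X : Type) [Group X], Subgroup X → Subgroup X → Prop}

theorem clT_of {X : Type} [Group X] [Finite X] {K S : Subgroup X}
    (hS : S ≤ normalizer (K : Set X)) (h : P X K S) : ClT P X K S :=
  ⟨X, inferInstance, inferInstance, K, S, hS, h, actSub_refl K S⟩

/-- a class of groups with an action from its finite members -/
theorem solvClassN_clT
    (hact : ∀ (X Y : Type) [Group X] [Group Y] [Finite X] [Finite Y] (K S : Subgroup X)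
      (D' T' : Subgroup Y), S ≤ normalizer (K : Set X) → T' ≤ normalizer (D' : Set Y) →
      ActSub K S D' T' → P X K S → P Y D' T')
    (hstep : ∀ (X : Type) [Group X] [Finite X] (D T : Subgroup X), P X D T →
      (∀ x ∈ D, ∀ y ∈ D, x * y = y * x) → IsPGroup p D → T ≤ normalizer (D : Set X) →
      centralizer (D : Set X) ≤ T → ¬ p ∣ (centralizer (D : Set X)).relIndex T →
      EqForAct p red D T ∨ ∃ a : ℕ, (∃ d ∈ D, d ^ p ^ a ≠ 1) ∧
        (centralizer (D : Set X)).relIndex T ≤ p ^ (a + 1) ∧ BoundHere k D T (p ^ (a + 1)) ∧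
        ∀ F ≤ T, centralizer (D : Set X) ≤ F → ∀ M ≤ D, M ≠ ⊥ → (∀ d ∈ D, d ^ p ^ a ∈ M) →
          F ≤ centralizer (M : Set X) → ¬ F ≤ centralizer (D : Set X) →
          P X (⁅F, D⁆ : Subgroup X) (T ⊓ normalizer ((⁅F, D⁆ : Subgroup X) : Set X))) :
    SolvClassN p red (ClT P) := by
  refine ⟨?_, ?_⟩
  · rintro X Y _ _ K T D' T' h ⟨X0, _, _, K0, S0, hS, hP, h0⟩
    exact ⟨X0, inferInstance, inferInstance, K0, S0, hS, hP, h0.trans h⟩
  · rintro X _ _ D T ⟨X0, _, _, K0, S0, hS, hP, h0⟩ hab hD hTN hCT hnd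
    rcases hstep X D T (hact X0 X K0 S0 D T hS hTN h0 hP) hab hD hTN hCT hnd with h | h
    · exact Or.inl h
    · obtain ⟨a, hex, he, hbd, hF⟩ := h
      exact Or.inr ⟨a, hex, he, hbd, fun F hFT hCF M hMD hM1 hM hFM hFD =>
        clT_of inf_le_right (hF F hFT hCF M hMD hM1 hM hFM hFD)⟩

end P179H351
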