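import Vale.Agent.P179.R2.H351.Ind11
import Vale.Agent.P179.R2.H843.SolvAct2
import Vale.Agent.P179.R2.H443.Kn1

/-!
# The equality and the congruence for the inductive class `Solved`
-/

namespace P179H351

open Subgroup P179H524 P179R P179Y MonoidAlgebra P179H292

open P179B (inertialIndex inertialGroup Solved Known)

open scoped Classical

universe u

variable {p : ℕ} [hp : Fact p.Prime] {k : Type u} [Field k] [IsAlgClosed k] [CharP k p]
  (red : integralClosure ℤ ℂ →+* k)

/-- the class `Solved` -/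
theorem solvClassN_solved (hp2 : 2 < p) :
    SolvClassN p red fun (X : Type) [Group X] (D T : Subgroup X) =>
      Finite D ∧ T ≤ normalizer (D : Set X) ∧ Solved p D T := by
  refine ⟨fun X Y _ _ K T D' T' h hK => P179H843.solved_act hK.1 hK.2.1 h hK.2.2,
    fun X _ _ D T hDT hab hD hTN hCT hnd => ?_⟩
  rcases hDT.2.2 with h | ⟨a, j, o, w, hex, hj, ho0, hw, ho, hreg, hii, he, hcd, hF⟩
  · exact Or.inl (P179H443.eqForAct_of_known red (eqwStmt p k) hp2 hTN h)
  · refine Or.inr ⟨a, hex, he, boundHere_of_reg (P179H452.m7Stmt red (by omega)) hab hj hw ho0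
      (fun i hi => (ho i).1 hi) hreg hii hcd, fun F hFT _ M _ _ hM hFM _ =>
        ⟨inferInstance, inf_le_right, ?_⟩⟩
    refine hF F hFT fun n hn d hd => ?_
    have h1 := mem_centralizer_iff.1 (hFM hn) _ (hM d hd)
    rw [← h1, mul_inv_cancel_right]

theorem eqForAct_of_solved (hp2 : 2 < p) {G : Type} [Group G] [Finite G] {K S : Subgroup G}
    (hS : S ≤ normalizer (K : Set G)) (h : Solved p K S) : EqForAct p red K S :=
  eqForAct_class red (solvClassN_solved red hp2) ⟨inferInstance, hS, h⟩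

variable {G : Type} [Group G] [Finite G] {B : MonoidAlgebra k G} {D : Subgroup G}
  {β : MonoidAlgebra k (centralizer (D : Set G))}

/-- **the equality**, in terms of `D` -/
theorem eq_of_solved (hp2 : 2 < p) (hB : P179B.IsBlock B)
    (hD : P179B.IsDefectGroup B D) (hab : ∀ a ∈ D, ∀ b ∈ D, a * b = b * a)
    (hβ : P179B.IsBlock β) (hβB : P179B.InducesTo β B) (h : Solved p D (inertialGroup D β)) :
    P179B.numSimpleIn B = P179B.numWeightsIn p red B :=
  eq_class_self red (solvClassN_solved red hp2) hB hD hab hβ hβB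
    ⟨inferInstance, fun n hn => hn.1, h⟩

/-- **the equality**, in terms of `[D, T]` -/
theorem eq_of_solved_hyp (hp2 : 2 < p) (hB : P179B.IsBlock B)
    (hD : P179B.IsDefectGroup B D) (hab : ∀ a ∈ D, ∀ b ∈ D, a * b = b * a)
    (hβ : P179B.IsBlock β) (hβB : P179B.InducesTo β B)
    (h : Solved p (⁅inertialGroup D β, D⁆ : Subgroup G) (inertialGroup D β)) :
    P179B.numSimpleIn B = P179B.numWeightsIn p red B :=
  eq_class_hyp red (solvClassN_solved red hp2) hB hD hab hβ hβB
    ⟨inferInstance, comm_normal (fun n hn => hn.1) fun t ht f hf =>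
      (inertialGroup D β).mul_mem ((inertialGroup D β).mul_mem ht hf)
        ((inertialGroup D β).inv_mem ht), h⟩

/-- **the equality**, in terms of `[D, C_T(M)]` for a normal `p`-subgroup `M` of `G` -/
theorem eq_of_solved_normal (hp2 : 2 < p) (M : Subgroup G) [hMn : M.Normal]
    (hM : IsPGroup p M) (hB : P179B.IsBlock B)
    (hD : P179B.IsDefectGroup B D) (hab : ∀ a ∈ D, ∀ b ∈ D, a * b = b * a)
    (hβ : P179B.IsBlock β) (hβB : P179B.InducesTo β B)
    (h : Solved p (⁅inertialGroup D β ⊓ centralizer (M : Set G), D⁆ : Subgroup G)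
      (inertialGroup D β)) :
    P179B.numSimpleIn B = P179B.numWeightsIn p red B := by
  refine eq_class_normal red (solvClassN_solved red hp2) M hM hB hD hab hβ hβB
    ⟨inferInstance, ?_, h⟩
  refine comm_normal (fun n hn => hn.1) fun t ht f hf => ?_
  have h2 : (centralizer (M : Set G)).Normal := inferInstance
  exact mem_inf.2 ⟨(inertialGroup D β).mul_mem ((inertialGroup D β).mul_mem ht hf.1)
    ((inertialGroup D β).inv_mem ht), h2.conj_mem f hf.2 t⟩

/-- **the congruence modulo `p ^ (a + 1)`** -/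
theorem modEq_of_solved (hp2 : 2 < p) {a : ℕ} (hB : P179B.IsBlock B)
    (hD : P179B.IsDefectGroup B D) (hab : ∀ a ∈ D, ∀ b ∈ D, a * b = b * a)
    (hβ : P179B.IsBlock β) (hβB : P179B.InducesTo β B)
    (h : ∀ F ≤ inertialGroup D β, (∀ n ∈ F, ∀ d ∈ D, n * d ^ p ^ a * n⁻¹ = d ^ p ^ a) →
      Solved p (⁅F, D⁆ : Subgroup G)
        (inertialGroup D β ⊓ normalizer ((⁅F, D⁆ : Subgroup G) : Set G))) :
    P179B.numSimpleIn B ≡ P179B.numWeightsIn p red B [MOD p ^ (a + 1)] :=
  modEq_class red (solvClassN_solved red hp2) hB hD hab hβ hβB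
    fun F hFT hF => ⟨inferInstance, inf_le_right, h F hFT hF⟩

end P179H351
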