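import Vale.Agent.P179.R2.H292.Mass2
import Vale.Agent.P179.R2.H351.Ind9

/-!
# The bound from all regular elements, in the form used in the induction
-/

namespace P179H351

open Subgroup P179H524 P179R P179Y MonoidAlgebra P179H292

open P179B (inertialIndex inertialGroup regularElements)

open scoped Classical

universe u

variable {p : ℕ} [hp : Fact p.Prime] {k : Type u} [Field k] [IsAlgClosed k] [CharP k p]
  (red : integralClosure ℤ ℂ →+* k)

include red in
/-- the bound, from the number of all regular elements -/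
theorem boundHere_of_mass (hp2 : p ≠ 2) {G : Type} [Group G] [Finite G] {D T : Subgroup G}
    (hab : ∀ x ∈ D, ∀ y ∈ D, x * y = y * x) {N : ℕ}
    (he1 : (centralizer (D : Set G)).relIndex T + 1 < p)
    (hes : Nat.card D * (centralizer (D : Set G)).relIndex T < (p - 1) *
      Nat.card {u : G // u ∈ D ∧ ∀ n ∈ T, n * u * n⁻¹ = u → n ∈ centralizer (D : Set G)})
    (hnum : (p - 2) ^ 2 * (Nat.card D * (centralizer (D : Set G)).relIndex T *
        Nat.card {u : G // u ∈ D ∧ ∀ n ∈ T, n * u * n⁻¹ = u → n ∈ centralizer (D : Set G)}) ≤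
      N * ((p - 1) *
        Nat.card {u : G // u ∈ D ∧ ∀ n ∈ T, n * u * n⁻¹ = u → n ∈ centralizer (D : Set G)} -
        Nat.card D * (centralizer (D : Set G)).relIndex T) ^ 2) :
    BoundHere k D T N := by
  intro B β hB hD hβ hβB hT
  subst hT
  have hp2' := hp.out.two_le
  have hi : (centralizer (D : Set G)).relIndex (inertialGroup D β) = inertialIndex D β := rfl
  rw [hi] at he1 hes hnum
  by_cases he : inertialIndex D β = 1
  · have := Fintype.ofFinite G
    have h1 := P179I.equality_half red hB hD hab hβ ((P179B.inducesTo_iff β B).1 hβB)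
      (by rw [he]; omega)
    have h2 : P179B.numSimpleIn B = P179B.numWeightsIn p red B := by
      rw [P179B.numSimpleIn_eq, P179B.numWeightsIn_eq, h1]
    have h3 := (numWeights_le red hB hD hab hβ hβB).1
    rw [h2]
    refine h3.trans ?_
    rw [he]
    by_contra h0
    have hN : N = 0 := by omega
    subst hN
    rw [zero_mul, Nat.le_zero, he] at hnum
    have hv : 0 < Nat.card {u : G // u ∈ D ∧
        ∀ n ∈ inertialGroup D β, n * u * n⁻¹ = u → n ∈ centralizer (D : Set G)} := by
      rcases Nat.eq_zero_or_pos (Nat.card {u : G // u ∈ D ∧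
        ∀ n ∈ inertialGroup D β, n * u * n⁻¹ = u → n ∈ centralizer (D : Set G)}) with h | h
      · rw [h, mul_zero] at hes
        omega
      · exact h
    have hq : 0 < Nat.card D := Nat.card_pos
    have hp3 : 0 < p - 2 := by omega
    have h4 := Nat.mul_pos (Nat.pow_pos hp3 (n := 2)) (Nat.mul_pos (Nat.mul_pos hq one_pos) hv)
    omega
  · have hc : Nat.card {u : G // u ∈ D ∧
        ∀ n ∈ inertialGroup D β, n * u * n⁻¹ = u → n ∈ centralizer (D : Set G)} =
        Nat.card {u : G // u ∈ regularElements D β ∧ u ≠ 1} := by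
      refine Nat.card_congr (Equiv.subtypeEquivRight fun u => ⟨fun h => ⟨h, ?_⟩, fun h => h.1⟩)
      rintro rfl
      apply he
      exact relIndex_eq_one.2 fun n hn => h.2 n hn (by rw [mul_one, mul_inv_cancel])
    rw [hc] at hes hnum
    have h1 := bound_mass red hB hD hab hβ hβB hp2 he1 hes
    have h2 := h1.trans hnum
    refine Nat.le_of_mul_le_mul_right h2 (Nat.pow_pos (Nat.sub_pos_of_lt hes))

end P179H351
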