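import Vale.Agent.P179.R2.H351.Ind5
import Vale.Agent.P179.R2.H364.RelHyp

/-!
# The congruence modulo `p ^ (a + 1)` when only the factors of order at most `p ^ a` are solved
-/

namespace P179H351

open Subgroup P179H524 P179R P179Y MonoidAlgebra P179H292

open P179B (inertialIndex inertialGroup regularElements GrowingFactors hyperfocal)

open scoped Classical

universe u

/-- `Up` is closed under isomorphisms, and the direct factors of exponent at most `p ^ a` of the
members of `Up` are in the class `Cl` -/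
structure UpClass (p a : ℕ) (Cl Up : ∀ (X : Type) [Group X], Subgroup X → Prop) : Prop where
  /-- closed under isomorphisms -/
  iso : ∀ (X Y : Type) [Group X] [Group Y] (K : Subgroup X) (D : Subgroup Y), (K ≃* D) →
    Up X K → Up Y D
  /-- the small direct factors are in the class -/
  low : ∀ (X : Type) [Group X] [Finite X] (D K : Subgroup X), Up X D →
    (∀ x ∈ D, ∀ y ∈ D, x * y = y * x) → IsPGroup p D → IsFactor D K →
    (∀ x ∈ K, x ^ p ^ a = 1) → Cl X K

theorem isFactor_self {G : Type*} [Group G] (D : Subgroup G) : IsFactor D D :=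
  ⟨le_refl D, ⊥, bot_le, fun x hx _ => mem_bot.1 hx, fun d hd =>
    ⟨1, one_mem _, d, hd, (one_mul d).symm⟩⟩

section

variable {p : ℕ} [hp : Fact p.Prime] {k : Type u} [Field k] [IsAlgClosed k] [CharP k p]
  (red : integralClosure ℤ ℂ →+* k)

/-- the congruence, in terms of `D` -/
theorem modEq_of_up_self (h7 : M7Stmt p k) (hW7 : W7Stmt p k red) {a : ℕ}
    {Cl Up : ∀ (X : Type) [Group X], Subgroup X → Prop} (hCl : SolvClass p red Cl)
    (hUp : UpClass p a Cl Up) {G : Type} [Group G] [Finite G] {B : MonoidAlgebra k G}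
    (hB : P179B.IsBlock B) {D : Subgroup G} (hD : P179B.IsDefectGroup B D)
    (hab : ∀ a ∈ D, ∀ b ∈ D, a * b = b * a) {β : MonoidAlgebra k (centralizer (D : Set G))}
    (hβ : P179B.IsBlock β) (hβB : P179B.InducesTo β B) (h : Up G D) :
    P179B.numSimpleIn B ≡ P179B.numWeightsIn p red B [MOD p ^ (a + 1)] := by
  have hDp : IsPGroup p D := isPGroup_of_defect (p := p) hB hD
  have hfac : ∀ K : Subgroup G, IsFactor D K → (∀ x ∈ K, x ^ p ^ a = 1) → EqFor p red K := by
    intro K hK hexp
    exact eqFor_of_class red h7 hW7 hCl _ G K rfl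
      (fun x hx y hy => hab x (hK.1 hx) y (hK.1 hy)) (hUp.low G D K h hab hDp hK hexp)
  by_cases hex : ∃ d ∈ D, d ^ p ^ a ≠ 1
  · have hdvd := hW7 G B D β a hB hD hab hβ hβB hex hfac
    rw [← Int.natCast_modEq_iff]
    refine Int.ModEq.symm ((Int.modEq_iff_dvd).2 ?_)
    exact_mod_cast hdvd
  · push Not at hex
    have h1 := hfac D (isFactor_self D) hex G B D hB hD ⟨MulEquiv.refl _⟩
    rw [P179B.numSimpleIn_eq, P179B.numWeightsIn_eq, h1]

/-- the congruence, in terms of `[D, T]` -/
theorem modEq_of_up (h7 : M7Stmt p k) (hW7 : W7Stmt p k red) {a : ℕ}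
    {Cl Up : ∀ (X : Type) [Group X], Subgroup X → Prop} (hCl : SolvClass p red Cl)
    (hUp : UpClass p a Cl Up) {G : Type} [Group G] [Finite G] {B : MonoidAlgebra k G}
    (hB : P179B.IsBlock B) {D : Subgroup G} (hD : P179B.IsDefectGroup B D)
    (hab : ∀ a ∈ D, ∀ b ∈ D, a * b = b * a) {β : MonoidAlgebra k (centralizer (D : Set G))}
    (hβ : P179B.IsBlock β) (hβB : P179B.InducesTo β B)
    (h : Up G (⁅inertialGroup D β, D⁆ : Subgroup G)) :
    P179B.numSimpleIn B ≡ P179B.numWeightsIn p red B [MOD p ^ (a + 1)] := by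
  rw [P179B.numSimpleIn_eq, P179B.numWeightsIn_eq]
  refine P179H364.rel_of_hyp red (P := fun l w => l ≡ w [MOD p ^ (a + 1)]) (Nat.ModEq.refl 0)
    (fun _ _ _ _ h1 h2 => h1.add h2) _ G rfl B D β hB hD hab hβ
    ((P179B.inducesTo_iff β B).1 hβB) ?_
  intro X _ _ B' D' β' hB' hD' hab' hβ' hβB' hact
  obtain ⟨e, -⟩ := hact
  have h1 := modEq_of_up_self red h7 hW7 hCl hUp hB' hD' hab' hβ'
    ((P179B.inducesTo_iff β' B').2 hβB') (hUp.iso G X _ D' e h)
  rwa [P179B.numSimpleIn_eq, P179B.numWeightsIn_eq] at h1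

end

end P179H351
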