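import Vale.Agent.P179.R2.H351.Ind6

/-!
# The final induction for classes of abelian `p`-groups with an action
-/

namespace P179H351

open Subgroup P179H524 P179R P179Y MonoidAlgebra P179H292

open P179B (inertialIndex inertialGroup regularElements hyperfocal)

open scoped Classical

universe u

/-- the equality holds for the groups `[D, F]`, `F ≤ T` centralising some `M ≠ 1` which contains
`D ^ (p ^ a)`, with the action of `T` -/
def StarAct (p : ℕ) {k : Type u} [Field k] (red : integralClosure ℤ ℂ →+* k) (a : ℕ)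
    {G : Type*} [Group G] (D T : Subgroup G) : Prop :=
  ∀ F ≤ T, centralizer (D : Set G) ≤ F → ∀ M ≤ D, M ≠ ⊥ → (∀ d ∈ D, d ^ p ^ a ∈ M) →
    F ≤ centralizer (M : Set G) → ¬ F ≤ centralizer (D : Set G) →
    EqForAct p red (⁅F, D⁆ : Subgroup G) T

/-- the congruence modulo `p ^ (a + 1)`, relative to the groups `[D, F]` with the action of `T` -/
def W7ActStmt (p : ℕ) (k : Type u) [Field k] (red : integralClosure ℤ ℂ →+* k) : Prop :=
  ∀ (G : Type) [Group G] [Finite G] (B : MonoidAlgebra k G) (D : Subgroup G)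
    (β : MonoidAlgebra k (centralizer (D : Set G))) (a : ℕ), P179B.IsBlock B →
    P179B.IsDefectGroup B D → (∀ x ∈ D, ∀ y ∈ D, x * y = y * x) → P179B.IsBlock β →
    P179B.InducesTo β B → (∃ d ∈ D, d ^ p ^ a ≠ 1) → StarAct p red a D (inertialGroup D β) →
    (p : ℤ) ^ (a + 1) ∣ (P179B.numSimpleIn B : ℤ) - P179B.numWeightsIn p red B

/-- a class of finite abelian `p`-groups `D` with a group `T` acting on `D`, closed under subgroups
of the acting group and under the passage to `[D, F]`, whose members are solved or have regular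
cosets -/
structure SolvClassAct (p : ℕ) {k : Type u} [Field k] (red : integralClosure ℤ ℂ →+* k)
    (Cl : ∀ (X : Type) [Group X], Subgroup X → Subgroup X → Prop) : Prop where
  /-- closed under isomorphisms and restriction of the action -/
  act : ∀ (X Y : Type) [Group X] [Group Y] (K T : Subgroup X) (D' T' : Subgroup Y),
    ActSub K T D' T' → Cl X K T → Cl Y D' T'
  /-- closed under the passage to `[D, F]` -/
  fac : ∀ (X : Type) [Group X] [Finite X] (D T F : Subgroup X), Cl X D T →
    (∀ x ∈ D, ∀ y ∈ D, x * y = y * x) → IsPGroup p D → T ≤ normalizer (D : Set X) →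
    centralizer (D : Set X) ≤ T → ¬ p ∣ (centralizer (D : Set X)).relIndex T →
    F ≤ T → centralizer (D : Set X) ≤ F → Cl X (⁅F, D⁆ : Subgroup X) T
  /-- the members are solved or have regular cosets -/
  reg : ∀ (X : Type) [Group X] [Finite X] (D T : Subgroup X), Cl X D T →
    (∀ x ∈ D, ∀ y ∈ D, x * y = y * x) → IsPGroup p D → T ≤ normalizer (D : Set X) →
    centralizer (D : Set X) ≤ T → ¬ p ∣ (centralizer (D : Set X)).relIndex T →
    EqForAct p red D T ∨ HasRegCoset p D T

theorem actSub_refl {G : Type*} [Group G] (D T : Subgroup G) : ActSub D T D T :=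
  ⟨MulEquiv.refl _, fun t' ht' => ⟨t', ht', fun _ _ h => h⟩⟩

theorem comm_pow {G : Type*} [Group G] {D M F : Subgroup G} {n : ℕ}
    (hab : ∀ a ∈ D, ∀ b ∈ D, a * b = b * a) (hFN : F ≤ normalizer (D : Set G))
    (hM : ∀ d ∈ D, d ^ n ∈ M) (hF : F ≤ centralizer (M : Set G)) :
    ∀ x ∈ (⁅F, D⁆ : Subgroup G), x ^ n = 1 := by
  intro x hx
  rw [Subgroup.commutator_def] at hx
  have h1 : x ∈ D ∧ x ^ n = 1 := by
    refine closure_induction (p := fun x _ => x ∈ D ∧ x ^ n = 1) ?_ ?_ ?_ ?_ hx
    · rintro _ ⟨f, hf, d, hd, rfl⟩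
      have hfd : f * d * f⁻¹ ∈ D := (mem_normalizer_iff.mp (hFN hf) d).mp hd
      refine ⟨mul_mem hfd (inv_mem hd), ?_⟩
      have h2 : Commute (f * d * f⁻¹) d⁻¹ := hab _ hfd _ (inv_mem hd)
      change (f * d * f⁻¹ * d⁻¹) ^ n = 1
      rw [h2.mul_pow, conj_pow, inv_pow]
      have h4 := mem_centralizer_iff.1 (hF hf) _ (hM d hd)
      rw [← h4]
      group
    · exact ⟨one_mem D, one_pow n⟩
    · rintro a b _ _ ⟨ha, ha1⟩ ⟨hb, hb1⟩
      refine ⟨mul_mem ha hb, ?_⟩
      have h2 : Commute a b := hab a ha b hb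
      rw [h2.mul_pow, ha1, hb1, one_mul]
    · rintro a _ ⟨ha, ha1⟩
      refine ⟨inv_mem ha, ?_⟩
      rw [inv_pow, ha1, inv_one]
  exact h1.2

section

variable {p : ℕ} [hp : Fact p.Prime] {k : Type u} [Field k] [IsAlgClosed k] [CharP k p]
  (red : integralClosure ℤ ℂ →+* k)

/-- **the equality for all blocks with defect group and action in the class** -/
theorem eqForAct_of_class (h7 : M7Stmt p k) (hW7 : W7ActStmt p k red)
    {Cl : ∀ (X : Type) [Group X], Subgroup X → Subgroup X → Prop}
    (hCl : SolvClassAct p red Cl) :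
    ∀ (N : ℕ) (G : Type) [Group G] [Finite G] (K T : Subgroup G), Nat.card K = N →
      Cl G K T → EqForAct p red K T := by
  intro N
  induction N using Nat.strong_induction_on with
  | _ N ih =>
  intro G _ _ K T hN hK X _ _ B D β hB hDB hab hβ hβB hact
  have hB' : P179B.IsBlock B := hB
  have hDB' : P179B.IsDefectGroup B D := hDB
  have hβB' : P179B.InducesTo β B := (P179B.inducesTo_iff β B).2 hβB
  -- the defect group `D` is in the class
  have hDcl : Cl X D (inertialGroup D β) := hCl.act G X K T D _ hact hK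
  have hcard : Nat.card D = N := by
    obtain ⟨e, -⟩ := hact
    rw [← hN]
    exact (Nat.card_congr e.toEquiv).symm
  have hD : IsPGroup p D := isPGroup_of_defect (p := p) hB' hDB'
  obtain ⟨hwe, hnd⟩ := numWeights_le red hB' hDB' hab hβ hβB'
  have hTN : inertialGroup D β ≤ normalizer (D : Set X) := fun n hn => hn.1
  have hCT : centralizer (D : Set X) ≤ inertialGroup D β := by
    have := Fintype.ofFinite X
    obtain ⟨l, hl, hlz, hlb⟩ := exists_BP_of_subblock (p := p) hB' hDB' hab hβ hβB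
    rw [← stabT_eq_inertialGroup hβ hlb]
    exact cent_le_stabT D l
  rcases hCl.reg X D (inertialGroup D β) hDcl hab hD hTN hCT hnd with h | h
  · exact h X B D β hB hDB hab hβ hβB (actSub_refl _ _)
  obtain ⟨a, j, o, w, hex, hj, hw, ho0, ho, hreg, hii, hcd, he⟩ := h
  -- the groups `[D, F]` are solved
  have hstar : StarAct p red a D (inertialGroup D β) := by
    intro F hFT hCF M _ _ hMp hFM _
    have hFN : F ≤ normalizer (D : Set X) := hFT.trans hTN
    have hle : (⁅F, D⁆ : Subgroup X) ≤ D := comm_le hFN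
    have hexp := comm_pow hab hFN hMp hFM
    refine ih (Nat.card (⁅F, D⁆ : Subgroup X)) ?_ X _ _ rfl
      (hCl.fac X D _ F hDcl hab hD hTN hCT hnd hFT hCF)
    rw [← hcard]
    refine lt_of_le_of_ne (Subgroup.card_le_of_le hle) fun h => ?_
    have h1 : (⁅F, D⁆ : Subgroup X) = D := Subgroup.eq_of_le_of_card_ge hle h.ge
    obtain ⟨d, hd, hd1⟩ := hex
    exact hd1 (hexp d (by rw [h1]; exact hd))
  have hdvd := hW7 X B D β a hB' hDB' hab hβ hβB' hex hstar
  have hmod : P179B.numSimpleIn B ≡ P179B.numWeightsIn p red B [MOD p ^ (a + 1)] := by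
    rw [← Int.natCast_modEq_iff]
    refine Int.ModEq.symm ((Int.modEq_iff_dvd).2 ?_)
    exact_mod_cast hdvd
  have hl0 : 0 < P179B.numSimpleIn B := by
    rw [P179B.numSimpleIn_eq]
    exact P179C.numSimpleIn_pos B hB
  have h1 := h7 X B D β j o w hB' hDB' hab hβ hβB' hj hw ho hreg hii
  have hY : 0 < Nat.card {y : X // ∃ d ∈ D, d ^ p ^ j = y} := by
    rw [Nat.card_pos_iff]
    exact ⟨⟨⟨1, 1, one_mem D, one_pow _⟩⟩, inferInstance⟩
  have hl : P179B.numSimpleIn B ≤ p ^ (a + 1) := by
    have h2 : P179B.numSimpleIn B * (Nat.card {y : X // ∃ d ∈ D, d ^ p ^ j = y} * o) ≤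
        p ^ (a + 1) * (Nat.card {y : X // ∃ d ∈ D, d ^ p ^ j = y} * o) := by
      rw [← mul_assoc]
      exact h1.trans hcd
    exact Nat.le_of_mul_le_mul_right h2 (Nat.mul_pos hY ho0)
  have h3 := eq_of_modEq_le hmod hl0 hl (numWeights_pos red hB' hDB' hab) (hwe.trans he)
  rwa [P179B.numSimpleIn_eq, P179B.numWeightsIn_eq] at h3

/-- **the equality for all blocks with abelian defect group `D` such that `[D, T]` with the action
of `T` is in the class** -/
theorem eq_of_classAct (h7 : M7Stmt p k) (hW7 : W7ActStmt p k red)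
    {Cl : ∀ (X : Type) [Group X], Subgroup X → Subgroup X → Prop}
    (hCl : SolvClassAct p red Cl)
    {G : Type} [Group G] [Finite G] {B : MonoidAlgebra k G} (hB : P179B.IsBlock B)
    {D : Subgroup G} (hD : P179B.IsDefectGroup B D) (hab : ∀ a ∈ D, ∀ b ∈ D, a * b = b * a)
    {β : MonoidAlgebra k (centralizer (D : Set G))} (hβ : P179B.IsBlock β)
    (hβB : P179B.InducesTo β B)
    (h : Cl G (⁅inertialGroup D β, D⁆ : Subgroup G) (inertialGroup D β)) :
    P179B.numSimpleIn B = P179B.numWeightsIn p red B := by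
  have h1 := eqForAct_of_class red h7 hW7 hCl _ G (⁅inertialGroup D β, D⁆ : Subgroup G) _ rfl h
  rw [P179B.numSimpleIn_eq, P179B.numWeightsIn_eq]
  exact P179H364.rel_of_hyp red (P := fun l w => l = w) rfl
    (fun _ _ _ _ h2 h3 => by rw [h2, h3]) _ G rfl B D β hB hD hab hβ
    ((P179B.inducesTo_iff β B).1 hβB) h1

end

end P179H351
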