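import Vale.Agent.P179.R2.H351.Ind5

/-!
# The class `GrowingFactors` is closed under isomorphisms
-/

namespace P179H351

open Subgroup

open P179B (GrowingFactors)

open scoped Classical

theorem card_equiv_pow {G X : Type*} [Group G] [Group X] {K : Subgroup G} {D : Subgroup X}
    (e : K ≃* D) (n m : ℕ) :
    Nat.card {x : G // (∃ y ∈ K, y ^ n = x) ∧ x ^ m = 1} =
      Nat.card {x : X // (∃ y ∈ D, y ^ n = x) ∧ x ^ m = 1} := by
  have hK : ∀ x : {x : G // (∃ y ∈ K, y ^ n = x) ∧ x ^ m = 1}, (x : G) ∈ K := by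
    rintro ⟨x, ⟨y, hy, rfl⟩, -⟩
    exact pow_mem hy n
  have hD : ∀ x : {x : X // (∃ y ∈ D, y ^ n = x) ∧ x ^ m = 1}, (x : X) ∈ D := by
    rintro ⟨x, ⟨y, hy, rfl⟩, -⟩
    exact pow_mem hy n
  refine Nat.card_congr
    { toFun := fun x => ⟨e ⟨x, hK x⟩, ?_, ?_⟩
      invFun := fun x => ⟨e.symm ⟨x, hD x⟩, ?_, ?_⟩
      left_inv := fun x => Subtype.ext ?_
      right_inv := fun x => Subtype.ext ?_ }
  · obtain ⟨x, ⟨y, hy, rfl⟩, hx⟩ := x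
    refine ⟨e ⟨y, hy⟩, (e ⟨y, hy⟩).2, ?_⟩
    rw [pow_equiv]
    rfl
  · exact (pow_eq_one_equiv e ⟨x, hK x⟩ m).2 x.2.2
  · obtain ⟨x, ⟨y, hy, rfl⟩, hx⟩ := x
    refine ⟨e.symm ⟨y, hy⟩, (e.symm ⟨y, hy⟩).2, ?_⟩
    rw [pow_equiv]
    rfl
  · exact (pow_eq_one_equiv e.symm ⟨x, hD x⟩ m).2 x.2.2
  · change ((e.symm (e ⟨x, hK x⟩) : K) : G) = x
    rw [e.symm_apply_apply]
  · change ((e (e.symm ⟨x, hD x⟩) : D) : X) = x
    rw [e.apply_symm_apply]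

theorem isoGrow (p : ℕ) : IsoGrow p := by
  intro X Y _ _ K D e h i hi
  rw [← card_equiv e p, ← card_equiv_pow e]
  exact h i hi

end P179H351
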